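import Mathlib
import Crest.Prelude.Def_AsymptoticConvexity

/-!
Common library for row 125 (S0166--S0169): closed finite-codimensional subspaces, weakly null
sequences, and the "rank lemma" which excludes asymptotically uniformly convex renormings.
-/

set_option autoImplicit false
set_option linter.style.haveILetI false
set_option linter.unnecessarySimpa false

namespace Crest.Agent.Auc

open Crest.AnalysisR Filter Topology

variable {X : Type} [NormedAddCommGroup X] [NormedSpace ℝ X]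

abbrev mkB (X : Type) [i1 : NormedAddCommGroup X] [i2 : NormedSpace ℝ X] [i3 : CompleteSpace X] :
    RealBanach := ⟨X, i1, i2, i3⟩

def Cof (S : Submodule ℝ X) : Prop := IsClosed (S : Set X) ∧ FiniteDimensional ℝ (X ⧸ S)

def kerL : List (X →L[ℝ] ℝ) → Submodule ℝ X
  | [] => ⊤
  | φ :: L => LinearMap.ker (φ : X →ₗ[ℝ] ℝ) ⊓ kerL L

theorem mem_kerL {L : List (X →L[ℝ] ℝ)} {x : X} : x ∈ kerL L ↔ ∀ φ ∈ L, φ x = 0 := by
  induction L with
  | nil => simp [kerL]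
  | cons φ L ih => simp [kerL, ih]

theorem cof_kerL (L : List (X →L[ℝ] ℝ)) : Cof (kerL L) := by
  constructor
  · have : (kerL L : Set X) = ⋂ φ ∈ L, {x | φ x = 0} := by
      ext x; simp [mem_kerL]
    rw [this]
    exact isClosed_biInter fun φ _ => isClosed_eq φ.continuous continuous_const
  · let T : X →ₗ[ℝ] (Fin L.length → ℝ) := LinearMap.pi fun i => (L.get i : X →ₗ[ℝ] ℝ)
    have hT : LinearMap.ker T = kerL L := by
      ext x
      simp only [LinearMap.mem_ker, mem_kerL, T, funext_iff, LinearMap.pi_apply, Pi.zero_apply]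
      constructor
      · intro h φ hφ
        obtain ⟨i, rfl⟩ := List.get_of_mem hφ
        exact h i
      · intro h i
        exact h _ (List.get_mem L i)
    rw [← hT]
    exact (LinearMap.quotKerEquivRange T).symm.finiteDimensional

theorem exists_kerL_eq {S : Submodule ℝ X} (hS : Cof S) : ∃ L : List (X →L[ℝ] ℝ), kerL L = S := by
  obtain ⟨hc, hf⟩ := hS
  haveI := hc
  haveI := hf
  let b := Module.finBasis ℝ (X ⧸ S)
  refine ⟨List.ofFn fun i => (LinearMap.toContinuousLinearMap (b.coord i)).comp S.mkQL, ?_⟩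
  ext x
  simp only [mem_kerL, List.mem_ofFn, forall_exists_index, forall_apply_eq_imp_iff]
  constructor
  · intro h
    rw [← Submodule.Quotient.mk_eq_zero]
    apply b.ext_elem
    intro i
    simpa using h i
  · intro h i
    have : S.mkQL x = 0 := (Submodule.Quotient.mk_eq_zero S).2 h
    simp [this]

theorem isCof_iff [CompleteSpace X] (F : Set X) :
    (mkB X).IsCof F ↔ ∃ S : Submodule ℝ X, (S : Set X) = F ∧ Cof S := by
  constructor
  · rintro ⟨S, rfl, h1, h2⟩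
    exact ⟨S, rfl, h1, h2⟩
  · rintro ⟨S, rfl, h1, h2⟩
    exact ⟨S, rfl, h1, h2⟩

theorem isCof_kerL [CompleteSpace X] (L : List (X →L[ℝ] ℝ)) :
    (mkB X).IsCof (kerL L : Set X) :=
  (isCof_iff _).2 ⟨kerL L, rfl, cof_kerL L⟩

def WeaklyNull (y : ℕ → X) : Prop :=
  ∀ φ : X →L[ℝ] ℝ, Tendsto (fun n => φ (y n)) atTop (𝓝 0)

theorem weaklyNull_of_sqrt_bound (y : ℕ → X) (C : ℝ)
    (h : ∀ (A : Finset ℕ) (σ : ℕ → ℝ), (∀ n, σ n = 1 ∨ σ n = -1) →
      ‖∑ n ∈ A, σ n • y n‖ ≤ C * Real.sqrt A.card) : WeaklyNull y := by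
  intro φ
  rw [Metric.tendsto_atTop]
  intro ε hε
  have hfin : {n | ε ≤ |φ (y n)|}.Finite := by
    by_contra hinf
    have hinf : Set.Infinite {n | ε ≤ |φ (y n)|} := hinf
    obtain ⟨m, hm⟩ := exists_nat_gt ((‖φ‖ * C / ε) ^ 2)
    obtain ⟨A, hA, hcard⟩ := hinf.exists_subset_card_eq (m + 1)
    let σ : ℕ → ℝ := fun n => if 0 ≤ φ (y n) then 1 else -1
    have hσ : ∀ n, σ n = 1 ∨ σ n = -1 := by
      intro n; by_cases h0 : 0 ≤ φ (y n) <;> simp [σ, h0]
    have hσ' : ∀ n, σ n * φ (y n) = |φ (y n)| := by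
      intro n
      by_cases h0 : 0 ≤ φ (y n)
      · simp [σ, h0, abs_of_nonneg h0]
      · simp [σ, h0, abs_of_neg (not_le.1 h0)]
    have h1 := h A σ hσ
    have h2 : ε * A.card ≤ φ (∑ n ∈ A, σ n • y n) := by
      rw [map_sum]
      simp only [map_smul, smul_eq_mul, hσ']
      calc ε * A.card = ∑ n ∈ A, ε := by simp [mul_comm]
        _ ≤ ∑ n ∈ A, |φ (y n)| := Finset.sum_le_sum fun n hn => hA hn
    have h3 : φ (∑ n ∈ A, σ n • y n) ≤ ‖φ‖ * (C * Real.sqrt A.card) :=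
      (le_abs_self _).trans ((φ.le_opNorm _).trans (by gcongr))
    have hpos : (0 : ℝ) < A.card := by rw [hcard]; positivity
    have hs : 0 < Real.sqrt A.card := Real.sqrt_pos.2 hpos
    have h4 : ε * Real.sqrt A.card ≤ ‖φ‖ * C := by
      have : ε * (Real.sqrt A.card * Real.sqrt A.card) ≤ ‖φ‖ * C * Real.sqrt A.card := by
        rw [Real.mul_self_sqrt hpos.le]; linarith
      have h5 : (ε * Real.sqrt A.card) * Real.sqrt A.card ≤ (‖φ‖ * C) * Real.sqrt A.card := by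
        linarith
      exact le_of_mul_le_mul_right h5 hs
    have h5 : Real.sqrt A.card ≤ ‖φ‖ * C / ε := by
      rw [le_div_iff₀ hε]; linarith
    have h6 : (A.card : ℝ) ≤ (‖φ‖ * C / ε) ^ 2 := by
      calc (A.card : ℝ) = Real.sqrt A.card ^ 2 := (Real.sq_sqrt hpos.le).symm
        _ ≤ _ := by gcongr
    rw [hcard] at h6
    push_cast at h6
    linarith
  obtain ⟨N, hN⟩ := hfin.bddAbove
  refine ⟨N + 1, fun n hn => ?_⟩
  by_contra hcon
  have : n ≤ N := hN (by simpa [Real.dist_eq] using hcon)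
  omega

theorem tendsto_mkQ_of_weaklyNull {y : ℕ → X} (hy : WeaklyNull y) {S : Submodule ℝ X}
    (hc : IsClosed (S : Set X)) (hf : FiniteDimensional ℝ (X ⧸ S)) :
    Tendsto (fun n => ‖(Submodule.Quotient.mk (y n) : X ⧸ S)‖) atTop (𝓝 0) := by
  let b := Module.finBasis ℝ (X ⧸ S)
  have h1 : ∀ n, (Submodule.Quotient.mk (y n) : X ⧸ S)
      = ∑ i, ((LinearMap.toContinuousLinearMap (b.coord i)).comp S.mkQL) (y n) • b i := by
    intro n
    conv_lhs => rw [← b.sum_repr (Submodule.Quotient.mk (y n))]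
    rfl
  have h2 : Tendsto (fun n => (Submodule.Quotient.mk (y n) : X ⧸ S)) atTop (𝓝 0) := by
    have : Tendsto (fun n => ∑ i, ((LinearMap.toContinuousLinearMap (b.coord i)).comp S.mkQL)
        (y n) • b i) atTop (𝓝 (∑ i, (0 : ℝ) • b i)) := by
      apply tendsto_finsetSum
      intro i _
      exact (hy _).smul_const _
    simp only [zero_smul, Finset.sum_const_zero] at this
    exact this.congr fun n => (h1 n).symm
  simpa using h2.norm

theorem eventually_near_of_weaklyNull {y : ℕ → X} (hy : WeaklyNull y) {S : Submodule ℝ X}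
    (hS : Cof S) {ε : ℝ} (hε : 0 < ε) : ∀ᶠ n in atTop, ∃ y' ∈ S, ‖y n - y'‖ < ε := by
  obtain ⟨hc, hf⟩ := hS
  have h := tendsto_mkQ_of_weaklyNull hy hc hf
  have h2 : ∀ᶠ n in atTop, ‖(Submodule.Quotient.mk (y n) : X ⧸ S)‖ < ε / 2 :=
    h.eventually (gt_mem_nhds (by positivity))
  filter_upwards [h2] with n hn
  obtain ⟨m, hm1, hm2⟩ := Submodule.Quotient.norm_mk_lt (Submodule.Quotient.mk (y n) : X ⧸ S)
    (show 0 < ε / 2 by positivity)
  refine ⟨y n - m, ?_, ?_⟩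
  · rw [← Submodule.Quotient.mk_eq_zero, Submodule.Quotient.mk_sub, hm1, sub_self]
  · simp only [sub_sub_cancel]; linarith

theorem not_finiteDimensional_of_weaklyNull {y : ℕ → X} (hy : WeaklyNull y) {δ : ℝ} (hδ : 0 < δ)
    (h : ∀ n, δ ≤ ‖y n‖) : ¬ FiniteDimensional ℝ X := by
  intro hfd
  have hS : Cof (⊥ : Submodule ℝ X) := ⟨by simpa using isClosed_singleton, inferInstance⟩
  obtain ⟨n, y', hy', hn⟩ := (eventually_near_of_weaklyNull hy hS hδ).exists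
  rw [Submodule.mem_bot] at hy'
  subst hy'
  simp only [sub_zero] at hn
  exact absurd (h n) (not_le.2 hn)

theorem exists_pair_near (y : ℕ → X) (R : ℝ) (hb : ∀ n, ‖y n‖ ≤ R) {S : Submodule ℝ X}
    (hS : Cof S) {ε : ℝ} (hε : 0 < ε) : ∃ i j : ℕ, i ≠ j ∧ ∃ z ∈ S, ‖y i - y j - z‖ < ε := by
  obtain ⟨hc, hf⟩ := hS
  have := FiniteDimensional.proper_real (X ⧸ S)
  have hbd : Bornology.IsBounded (Set.range fun n => (Submodule.Quotient.mk (y n) : X ⧸ S)) := by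
    rw [isBounded_iff_forall_norm_le]
    refine ⟨R, ?_⟩
    rintro _ ⟨n, rfl⟩
    exact (Submodule.Quotient.norm_mk_le S (y n)).trans (hb n)
  obtain ⟨a, -, φ, hφ, hlim⟩ := tendsto_subseq_of_bounded hbd (fun n => Set.mem_range_self n)
  have hc := hlim.cauchySeq
  rw [Metric.cauchySeq_iff] at hc
  obtain ⟨N, hN⟩ := hc (ε / 2) (by positivity)
  have h1 := hN N le_rfl (N + 1) (by omega)
  refine ⟨φ N, φ (N + 1), (hφ (by omega : N < N + 1)).ne, ?_⟩
  simp only [Function.comp, dist_eq_norm, ← Submodule.Quotient.mk_sub] at h1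
  obtain ⟨m, hm1, hm2⟩ := Submodule.Quotient.norm_mk_lt
    (Submodule.Quotient.mk (y (φ N) - y (φ (N + 1))) : X ⧸ S) (show 0 < ε / 2 by positivity)
  refine ⟨y (φ N) - y (φ (N + 1)) - m, ?_, ?_⟩
  · rw [← Submodule.Quotient.mk_eq_zero, Submodule.Quotient.mk_sub, hm1, sub_self]
  · simp only [sub_sub_cancel]; linarith

def Rank (δ : ℝ) : ℕ → X → Prop
  | 0, _ => True
  | k + 1, x => ∀ S : Submodule ℝ X, Cof S → ∀ η : ℝ, 0 < η →
      ∃ y y' : X, y' ∈ S ∧ ‖y - y'‖ ≤ η * ‖x‖ ∧ δ * ‖x‖ ≤ ‖y‖ ∧ ‖x + y‖ ≤ (1 + η) * ‖x‖ ∧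
        Rank δ k (x + y)

theorem rank_succ_of_weaklyNull {δ : ℝ} {k : ℕ} {x : X} (hx : x ≠ 0) (y : ℕ → X)
    (hy : WeaklyNull y) (h1 : ∀ n, δ * ‖x‖ ≤ ‖y n‖) (h2 : ∀ n, ‖x + y n‖ ≤ ‖x‖)
    (h3 : ∀ n, Rank δ k (x + y n)) : Rank δ (k + 1) x := by
  intro S hS η hη
  have hxn : 0 < ‖x‖ := norm_pos_iff.2 hx
  obtain ⟨n, y', hy', hn⟩ := (eventually_near_of_weaklyNull hy hS
    (show 0 < η * ‖x‖ by positivity)).exists
  refine ⟨y n, y', hy', hn.le, h1 n, (h2 n).trans ?_, h3 n⟩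
  nlinarith

/-- One step of the rank lemma. -/
theorem rank_step {N : X → ℝ} (hsub : ∀ x y : X, N (x + y) ≤ N x + N y)
    (hhom : ∀ (a : ℝ) (x : X), N (a • x) = |a| * N x) {a b : ℝ} (ha : 0 < a) (hb : 0 < b)
    (hab : ∀ x : X, a * ‖x‖ ≤ N x ∧ N x ≤ b * ‖x‖) {δ c : ℝ} (hδ : 0 < δ) (hc : 0 < c)
    (hauc : ∀ x : X, N x = 1 → ∃ S : Submodule ℝ X, Cof S ∧
      ∀ y ∈ S, N y = 1 → c ≤ N (x + (a * δ / (2 * b)) • y) - 1)
    {k : ℕ} {x : X} (hx : x ≠ 0) (hr : Rank δ (k + 1) x) :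
    ∃ x' : X, x' ≠ 0 ∧ Rank δ k x' ∧
      (1 + c / 2) * N x * ‖x'‖ ≤ (1 + c / 4) * (N x' * ‖x‖) := by
  have hxn : 0 < ‖x‖ := norm_pos_iff.2 hx
  set n := N x with hn
  have hnpos : 0 < n := lt_of_lt_of_le (by positivity) (hab x).1
  have hN0 : N 0 = 0 := by simpa using hhom 0 0
  have hneg : ∀ z : X, N (-z) = N z := by
    intro z; simpa using hhom (-1) z
  set t₀ := a * δ / (2 * b) with ht₀
  have ht₀pos : 0 < t₀ := by positivity
  obtain ⟨S, hS, hSy⟩ := hauc (n⁻¹ • x) (by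
    rw [hhom, abs_of_pos (inv_pos.2 hnpos)]; exact inv_mul_cancel₀ hnpos.ne')
  set η := min (c / 4) (min (a * c / (2 * b)) (a * δ / (2 * b))) with hη
  have hηpos : 0 < η := by
    simp only [hη, lt_min_iff]; refine ⟨by positivity, by positivity, by positivity⟩
  have hη1 : η ≤ c / 4 := min_le_left _ _
  have hη2 : b * η ≤ a * c / 2 := by
    have : η ≤ a * c / (2 * b) := (min_le_right _ _).trans (min_le_left _ _)
    calc b * η ≤ b * (a * c / (2 * b)) := by gcongr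
      _ = a * c / 2 := by field_simp
  have hη3 : b * η ≤ a * δ / 2 := by
    have : η ≤ a * δ / (2 * b) := (min_le_right _ _).trans (min_le_right _ _)
    calc b * η ≤ b * (a * δ / (2 * b)) := by gcongr
      _ = a * δ / 2 := by field_simp
  obtain ⟨y, y', hy'S, hyy', hyδ, hxy, hrk⟩ := hr S hS η hηpos
  -- size of `y'`
  have hNd : N (y - y') ≤ b * η * ‖x‖ := by
    calc N (y - y') ≤ b * ‖y - y'‖ := (hab _).2
      _ ≤ b * (η * ‖x‖) := by gcongr
      _ = b * η * ‖x‖ := by ring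
  have hNy : a * δ * ‖x‖ ≤ N y := by
    calc a * δ * ‖x‖ = a * (δ * ‖x‖) := by ring
      _ ≤ a * ‖y‖ := by gcongr
      _ ≤ N y := (hab y).1
  have hNy' : a * δ / 2 * ‖x‖ ≤ N y' := by
    have h1 : N y ≤ N y' + N (y - y') := by
      have := hsub y' (y - y'); simpa using this
    have h2 : b * η * ‖x‖ ≤ a * δ / 2 * ‖x‖ := by gcongr
    nlinarith
  set p := N y' with hp
  have hppos : 0 < p := lt_of_lt_of_le (by positivity) hNy'
  have hunit : N (p⁻¹ • y') = 1 := by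
    rw [hhom, abs_of_pos (inv_pos.2 hppos)]; exact inv_mul_cancel₀ hppos.ne'
  have hkey := hSy (p⁻¹ • y') (S.smul_mem _ hy'S) hunit
  -- `s = p / n ≥ t₀`
  set s := p / n with hs
  have hspos : 0 < s := by positivity
  have hst : t₀ ≤ s := by
    rw [hs, le_div_iff₀ hnpos]
    calc t₀ * n ≤ t₀ * (b * ‖x‖) := by gcongr; exact (hab x).2
      _ = a * δ / 2 * ‖x‖ := by rw [ht₀]; field_simp
      _ ≤ p := hNy'
  set l := t₀ / s with hl
  have hlpos : 0 < l := by positivity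
  have hl1 : l ≤ 1 := by rw [hl, div_le_one hspos]; exact hst
  have hconv : n⁻¹ • x + t₀ • (p⁻¹ • y') = (1 - l) • (n⁻¹ • x) + l • (n⁻¹ • (x + y')) := by
    have e1 : t₀ * p⁻¹ = l * n⁻¹ := by
      rw [hl, hs]; field_simp
    rw [smul_smul, e1]
    module
  have hN1 : N (n⁻¹ • x + t₀ • (p⁻¹ • y')) ≤ (1 - l) + l * (n⁻¹ * N (x + y')) := by
    rw [hconv]
    refine (hsub _ _).trans ?_
    rw [hhom, hhom, hhom, hhom, abs_of_nonneg (by linarith : 0 ≤ 1 - l), abs_of_pos hlpos,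
      abs_of_pos (inv_pos.2 hnpos), ← hn, inv_mul_cancel₀ hnpos.ne', mul_one]
  have hN2 : 1 + c ≤ n⁻¹ * N (x + y') := by
    have h1 : c ≤ l * (n⁻¹ * N (x + y') - 1) := by nlinarith
    have h2 : 0 ≤ n⁻¹ * N (x + y') - 1 := by
      by_contra hcon
      have : l * (n⁻¹ * N (x + y') - 1) < 0 := mul_neg_of_pos_of_neg hlpos (not_le.1 hcon)
      linarith
    nlinarith
  have hN3 : (1 + c) * n ≤ N (x + y') := by
    have := mul_le_mul_of_nonneg_left hN2 hnpos.le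
    rw [← mul_assoc, mul_inv_cancel₀ hnpos.ne', one_mul] at this
    linarith
  have hN4 : (1 + c / 2) * n ≤ N (x + y) := by
    have h1 : N (x + y') ≤ N (x + y) + N (y - y') := by
      have := hsub (x + y) (-(y - y'))
      rw [hneg] at this
      have e : x + y + -(y - y') = x + y' := by abel
      rwa [e] at this
    have h2 : b * η * ‖x‖ ≤ c / 2 * n := by
      calc b * η * ‖x‖ ≤ a * c / 2 * ‖x‖ := by gcongr
        _ = c / 2 * (a * ‖x‖) := by ring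
        _ ≤ c / 2 * n := by gcongr; exact (hab x).1
    nlinarith
  have hne : x + y ≠ 0 := by
    intro h0
    rw [h0, hN0] at hN4
    nlinarith
  refine ⟨x + y, hne, hrk, ?_⟩
  have h5 : ‖x + y‖ ≤ (1 + c / 4) * ‖x‖ := hxy.trans (by gcongr)
  calc (1 + c / 2) * n * ‖x + y‖ ≤ N (x + y) * ((1 + c / 4) * ‖x‖) := by
        apply mul_le_mul hN4 h5 (norm_nonneg _) (le_trans (by positivity) hN4)
    _ = (1 + c / 4) * (N (x + y) * ‖x‖) := by ring

theorem not_isAUC_of_rank [CompleteSpace X] {δ : ℝ} (hδ : 0 < δ)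
    (h : ∀ k : ℕ, ∃ x : X, x ≠ 0 ∧ Rank δ k x) (N : X → ℝ) (hN : (mkB X).IsEquivNorm N) :
    ¬ (mkB X).IsAUC N := by
  intro hA
  obtain ⟨hsub, hhom, a, b, ha, hab⟩ := hN
  have hb : 0 < b := by
    obtain ⟨x, hx, -⟩ := h 0
    have hxn : 0 < ‖x‖ := norm_pos_iff.2 hx
    have := (hab x).1.trans (hab x).2
    by_contra hcon
    have h1 : b * ‖x‖ ≤ 0 := mul_nonpos_of_nonpos_of_nonneg (not_lt.1 hcon) hxn.le
    have h2 : 0 < a * ‖x‖ := by positivity
    linarith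
  obtain ⟨c, hc, hauc⟩ := hA (a * δ / (2 * b)) (by positivity)
  have hauc' : ∀ x : X, N x = 1 → ∃ S : Submodule ℝ X, Cof S ∧
      ∀ y ∈ S, N y = 1 → c ≤ N (x + (a * δ / (2 * b)) • y) - 1 := by
    intro x hx
    obtain ⟨F, hF, hFy⟩ := hauc x hx
    obtain ⟨S, rfl, hS⟩ := (isCof_iff F).1 hF
    exact ⟨S, hS, fun y hy => hFy y hy⟩
  set q := (1 + c / 2) / (1 + c / 4) with hq
  have hq1 : 1 < q := by
    rw [hq, one_lt_div (by positivity)]; linarith
  have hind : ∀ (k : ℕ) (x : X), x ≠ 0 → Rank δ k x →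
      ∃ x' : X, x' ≠ 0 ∧ q ^ k * (N x * ‖x'‖) ≤ N x' * ‖x‖ := by
    intro k
    induction k with
    | zero => intro x hx _; exact ⟨x, hx, by simp⟩
    | succ k ih =>
      intro x hx hr
      obtain ⟨x₁, hx₁, hr₁, hle⟩ := rank_step hsub hhom ha hb hab hδ hc hauc' hx hr
      obtain ⟨x₂, hx₂, hle₂⟩ := ih x₁ hx₁ hr₁
      refine ⟨x₂, hx₂, ?_⟩
      have hx₁n : 0 < ‖x₁‖ := norm_pos_iff.2 hx₁
      have hle' : q * (N x * ‖x₁‖) ≤ N x₁ * ‖x‖ := by
        rw [hq, div_mul_eq_mul_div, div_le_iff₀ (by positivity)]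
        linarith
      have hqk : 0 ≤ q ^ k := by positivity
      -- multiply
      have h1 : q ^ (k + 1) * (N x * ‖x₂‖) * ‖x₁‖ ≤ N x₂ * ‖x‖ * ‖x₁‖ := by
        calc q ^ (k + 1) * (N x * ‖x₂‖) * ‖x₁‖ = q ^ k * ‖x₂‖ * (q * (N x * ‖x₁‖)) := by ring
          _ ≤ q ^ k * ‖x₂‖ * (N x₁ * ‖x‖) := by gcongr
          _ = q ^ k * (N x₁ * ‖x₂‖) * ‖x‖ := by ring
          _ ≤ N x₂ * ‖x₁‖ * ‖x‖ := by gcongr
          _ = N x₂ * ‖x‖ * ‖x₁‖ := by ring
      exact le_of_mul_le_mul_right h1 hx₁n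
  obtain ⟨k, hk⟩ := pow_unbounded_of_one_lt (b / a) hq1
  obtain ⟨x, hx, hr⟩ := h k
  obtain ⟨x', hx', hle⟩ := hind k x hx hr
  have hxn : 0 < ‖x‖ := norm_pos_iff.2 hx
  have hxn' : 0 < ‖x'‖ := norm_pos_iff.2 hx'
  have h1 : q ^ k * (a * ‖x‖ * ‖x'‖) ≤ b * ‖x'‖ * ‖x‖ := by
    calc q ^ k * (a * ‖x‖ * ‖x'‖) ≤ q ^ k * (N x * ‖x'‖) := by
          gcongr; exact (hab x).1
      _ ≤ N x' * ‖x‖ := hle
      _ ≤ b * ‖x'‖ * ‖x‖ := by gcongr; exact (hab x').2
  have h2 : q ^ k * a ≤ b := by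
    have : (q ^ k * a) * (‖x‖ * ‖x'‖) ≤ b * (‖x‖ * ‖x'‖) := by nlinarith
    exact le_of_mul_le_mul_right this (by positivity)
  rw [div_lt_iff₀ ha] at hk
  linarith

end Crest.Agent.Auc
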