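import Mathlib
import Crest.Prelude.Def_AsymptoticConvexity

/-!
Reflexivity lemmas (helper32, package P4b of row 125).

* `reflexive_of_equiv` : reflexivity transfers along a continuous linear equivalence.
* `reflexive_hilbert` : a real Hilbert space is reflexive.
* `reflexive_of_equiv_hilbert` : a space linearly homeomorphic to a real Hilbert space is reflexive.
* `reflexive_lp_two` : the `ℓ²`-sum of reflexive spaces is reflexive.
-/

set_option autoImplicit false

namespace Crest.Agent.helper32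

open scoped ENNReal

section transfer

variable {X Y : Type*} [NormedAddCommGroup X] [NormedSpace ℝ X]
  [NormedAddCommGroup Y] [NormedSpace ℝ Y]

/-- Reflexivity transfers along a continuous linear equivalence. -/
theorem reflexive_of_equiv (e : X ≃L[ℝ] Y)
    (hY : Function.Surjective (NormedSpace.inclusionInDoubleDual ℝ Y)) :
    Function.Surjective (NormedSpace.inclusionInDoubleDual ℝ X) := by
  intro Φ
  -- transport `Φ` to `Y**`
  let T : StrongDual ℝ Y →L[ℝ] StrongDual ℝ X :=
    (ContinuousLinearMap.compL ℝ X Y ℝ).flip (e : X →L[ℝ] Y)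
  obtain ⟨y, hy⟩ := hY (Φ.comp T)
  refine ⟨e.symm y, ?_⟩
  ext f
  have h1 : (NormedSpace.inclusionInDoubleDual ℝ Y y) (f.comp (e.symm : Y →L[ℝ] X))
      = (Φ.comp T) (f.comp (e.symm : Y →L[ℝ] X)) := by rw [hy]
  have h2 : T (f.comp (e.symm : Y →L[ℝ] X)) = f := by
    ext x
    simp [T]
  rw [NormedSpace.dual_def] at h1 ⊢
  simp only [ContinuousLinearMap.comp_apply, h2] at h1
  simpa using h1

end transfer

section hilbert

variable {H : Type*} [NormedAddCommGroup H] [InnerProductSpace ℝ H] [CompleteSpace H]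

/-- A real Hilbert space is reflexive. -/
theorem reflexive_hilbert :
    Function.Surjective (NormedSpace.inclusionInDoubleDual ℝ H) := by
  intro Φ
  let φ : H →L[ℝ] ℝ := LinearMap.mkContinuous
    { toFun := fun y => Φ (InnerProductSpace.toDual ℝ H y)
      map_add' := fun a b => by simp
      map_smul' := fun c a => by simp } ‖Φ‖ (fun y => by
        simpa using Φ.le_opNorm (InnerProductSpace.toDual ℝ H y))
  refine ⟨(InnerProductSpace.toDual ℝ H).symm φ, ?_⟩
  ext f
  rw [NormedSpace.dual_def]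
  obtain ⟨y, rfl⟩ := (InnerProductSpace.toDual ℝ H).surjective f
  have h : φ y = Φ (InnerProductSpace.toDual ℝ H y) := rfl
  rw [← h, InnerProductSpace.toDual_apply_apply, real_inner_comm,
    InnerProductSpace.toDual_symm_apply]

/-- A real normed space linearly homeomorphic to a Hilbert space is reflexive. -/
theorem reflexive_of_equiv_hilbert {X : Type*} [NormedAddCommGroup X] [NormedSpace ℝ X]
    (e : X ≃L[ℝ] H) : Function.Surjective (NormedSpace.inclusionInDoubleDual ℝ X) :=
  reflexive_of_equiv e reflexive_hilbert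

end hilbert

section lpsum

variable {ι : Type*} [DecidableEq ι] {Y : ι → Type*} [∀ i, NormedAddCommGroup (Y i)]
  [∀ i, NormedSpace ℝ (Y i)]

/-- the `i`-th component of a functional on the `ℓ²`-sum -/
noncomputable def comp2 (G : StrongDual ℝ (lp Y 2)) (i : ι) : StrongDual ℝ (Y i) :=
  G.comp (lp.singleContinuousLinearMap ℝ Y 2 i)

lemma comp2_apply (G : StrongDual ℝ (lp Y 2)) (i : ι) (y : Y i) :
    comp2 G i y = G (lp.single 2 i y) := rfl

lemma hasSum_comp2 (G : StrongDual ℝ (lp Y 2)) (y : lp Y 2) :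
    HasSum (fun i => comp2 G i (y i)) (G y) := by
  have h := lp.hasSum_single (p := 2) (by simp) y
  exact G.hasSum h

/-- almost norming vectors -/
lemma exists_almost_norming {Z : Type*} [NormedAddCommGroup Z] [NormedSpace ℝ Z]
    (g : StrongDual ℝ Z) {δ : ℝ} (hδ : 0 < δ) :
    ∃ z : Z, ‖z‖ ≤ 1 ∧ (1 - δ) * ‖g‖ ≤ g z := by
  by_cases hg : ‖g‖ = 0
  · exact ⟨0, by simp, by simp [hg]⟩
  have hpos : 0 < ‖g‖ := lt_of_le_of_ne (norm_nonneg _) (Ne.symm hg)
  have hlt : (1 - δ) * ‖g‖ < ‖g‖ := by nlinarith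
  obtain ⟨z, hz1, hz2⟩ := g.exists_lt_apply_of_lt_opNorm hlt
  rcases le_total 0 (g z) with h | h
  · refine ⟨z, hz1.le, ?_⟩
    rw [Real.norm_eq_abs, abs_of_nonneg h] at hz2
    exact hz2.le
  · refine ⟨-z, by simpa using hz1.le, ?_⟩
    rw [Real.norm_eq_abs, abs_of_nonpos h] at hz2
    simpa using hz2.le

lemma sum_norm_comp2_sq_le (G : StrongDual ℝ (lp Y 2)) (s : Finset ι) :
    ∑ i ∈ s, ‖comp2 G i‖ ^ 2 ≤ ‖G‖ ^ 2 := by
  set S : ℝ := ∑ i ∈ s, ‖comp2 G i‖ ^ 2 with hS
  have hS0 : 0 ≤ S := Finset.sum_nonneg (fun i _ => by positivity)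
  have key : ∀ δ : ℝ, 0 < δ → (1 - δ) * S ≤ ‖G‖ * Real.sqrt S := by
    intro δ hδ
    choose z hz1 hz2 using fun i => exists_almost_norming (comp2 G i) hδ
    let w : lp Y 2 := ∑ i ∈ s, lp.single 2 i (‖comp2 G i‖ • z i)
    have hw : ‖w‖ ^ 2 ≤ S := by
      have := lp.norm_sum_single (p := 2) (E := Y) (by simp) (fun i => ‖comp2 G i‖ • z i) s
      simp only [ENNReal.toReal_ofNat, Real.rpow_ofNat] at this
      rw [this]
      apply Finset.sum_le_sum
      intro i _
      rw [norm_smul, norm_norm]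
      have := hz1 i
      have h0 := norm_nonneg (comp2 G i)
      have h1 := norm_nonneg (z i)
      gcongr
      nlinarith
    have hw' : ‖w‖ ≤ Real.sqrt S := Real.le_sqrt_of_sq_le hw
    have hGw : G w = ∑ i ∈ s, ‖comp2 G i‖ * comp2 G i (z i) := by
      simp only [w, map_sum]
      apply Finset.sum_congr rfl
      intro i _
      rw [← comp2_apply, map_smul, smul_eq_mul]
    have h1 : (1 - δ) * S ≤ G w := by
      rw [hGw, hS, Finset.mul_sum]
      apply Finset.sum_le_sum
      intro i _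
      have := hz2 i
      have h0 := norm_nonneg (comp2 G i)
      nlinarith
    calc (1 - δ) * S ≤ G w := h1
      _ ≤ ‖G w‖ := Real.le_norm_self _
      _ ≤ ‖G‖ * ‖w‖ := G.le_opNorm w
      _ ≤ ‖G‖ * Real.sqrt S := by gcongr
  have key2 : S ≤ ‖G‖ * Real.sqrt S := by
    by_contra hcon
    rw [not_le] at hcon
    have hSpos : 0 < S := lt_of_le_of_lt (by positivity) hcon
    have := key ((S - ‖G‖ * Real.sqrt S) / (2 * S)) (by
      apply div_pos <;> linarith)
    have h2 : (1 - (S - ‖G‖ * Real.sqrt S) / (2 * S)) * S = S - (S - ‖G‖ * Real.sqrt S) / 2 := by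
      field_simp
    rw [h2] at this
    linarith
  have h3 : Real.sqrt S * Real.sqrt S = S := Real.mul_self_sqrt hS0
  have h4 : Real.sqrt S ≤ ‖G‖ := by
    by_contra hcon
    rw [not_le] at hcon
    have h5 : 0 < Real.sqrt S := lt_of_le_of_lt (norm_nonneg _) hcon
    nlinarith
  nlinarith [Real.sqrt_nonneg S, norm_nonneg G]

lemma memℓp_comp2 (G : StrongDual ℝ (lp Y 2)) : Memℓp (fun i => comp2 G i) 2 := by
  apply memℓp_gen' (C := ‖G‖ ^ 2)
  intro s
  simpa using sum_norm_comp2_sq_le G s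

end lpsum

section main

variable {ι : Type*} {X : ι → Type*} [∀ i, NormedAddCommGroup (X i)]
  [∀ i, NormedSpace ℝ (X i)]

/-- The `ℓ²`-sum of reflexive real normed spaces is reflexive. -/
theorem reflexive_lp_two
    (hX : ∀ i, Function.Surjective (NormedSpace.inclusionInDoubleDual ℝ (X i))) :
    Function.Surjective (NormedSpace.inclusionInDoubleDual ℝ (lp X 2)) := by
  classical
  intro Φ
  -- the natural pairing `ℓ²(X*) → (ℓ²(X))*`
  let D : lp (fun i => StrongDual ℝ (X i)) 2 →L[ℝ] StrongDual ℝ (lp X 2) :=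
    lp.dualPairing 2 2 (fun i => ContinuousLinearMap.id ℝ (StrongDual ℝ (X i))) (K := 1)
      (fun i => by simpa using ContinuousLinearMap.norm_id_le)
  have hD : ∀ (f : lp (fun i => StrongDual ℝ (X i)) 2) (x : lp X 2), D f x = ∑' i, f i (x i) := by
    intro f x
    rfl
  let Ψ : StrongDual ℝ (lp (fun i => StrongDual ℝ (X i)) 2) := Φ.comp D
  choose x hx using fun i => hX i (comp2 Ψ i)
  have hxn : ∀ i, ‖x i‖ = ‖comp2 Ψ i‖ := by
    intro i
    rw [← hx i]
    exact ((NormedSpace.inclusionInDoubleDualLi ℝ (E := X i)).norm_map (x i)).symm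
  have hmem : Memℓp x 2 := by
    have h := (memℓp_comp2 Ψ).norm
    have h2 : Memℓp (fun i => ‖x i‖) 2 := by
      simpa [hxn] using h
    exact h2.of_norm
  refine ⟨⟨x, hmem⟩, ?_⟩
  ext F
  rw [NormedSpace.dual_def]
  let f : lp (fun i => StrongDual ℝ (X i)) 2 := ⟨fun i => comp2 F i, memℓp_comp2 F⟩
  have hF : D f = F := by
    ext y
    rw [hD]
    exact (hasSum_comp2 F y).tsum_eq
  have h1 : Φ F = Ψ f := by
    show Φ F = Φ (D f)
    rw [hF]
  rw [h1, ← (hasSum_comp2 Ψ f).tsum_eq, ← hF, hD]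
  apply tsum_congr
  intro i
  rw [← hx i, NormedSpace.dual_def]

end main

section record

/-- Bridge to the `RealBanach` record of the Prelude. -/
theorem isReflexive_mk (X : Type) [i1 : NormedAddCommGroup X] [i2 : NormedSpace ℝ X]
    [i3 : CompleteSpace X]
    (h : Function.Surjective (NormedSpace.inclusionInDoubleDual ℝ X)) :
    (⟨X, i1, i2, i3⟩ : Crest.AnalysisR.RealBanach).IsReflexive := h

end record

end Crest.Agent.helper32
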