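import Mathlib
import Crest.Prelude.Def_DaugavetL1
import Crest.Agent.Lib.Auc

/-!
Abstract consequences of the Daugavet property (rank-one operator form):
the slice form, its stability under passing to closed hyperplanes (in a relative form), and the
statement `(*)`: for a unit vector `x`, a closed finite-codimensional subspace `F` and `η > 0` there
is a unit vector `y ∈ F` with `‖x + 2 y‖ ≤ 1 + η`.
-/

set_option autoImplicit false

namespace Crest.Agent.helper90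

open Crest.AnalysisR Crest.Agent.Auc

variable {X : Type} [NormedAddCommGroup X] [NormedSpace ℝ X]

/-- relative slice form of the Daugavet property for a subspace `Y` of `X`. -/
def DPrel (Y : Submodule ℝ X) : Prop :=
  ∀ x : X, ‖x‖ = 1 → ∀ (ψ : X →L[ℝ] ℝ) (a : ℝ), (∃ y0 ∈ Y, ‖y0‖ ≤ 1 ∧ a < ψ y0) →
    ∀ ε : ℝ, 0 < ε → ∃ y ∈ Y, ‖y‖ ≤ 1 ∧ a < ψ y ∧ 2 - ε < ‖x + y‖

theorem dprel_top (hD : L1Subspace.HasDaugavetProperty X) : DPrel (⊤ : Submodule ℝ X) := by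
  rintro x hx ψ a ⟨y0, -, hy0, hay0⟩ ε hε
  by_cases hψ : ψ = 0
  · refine ⟨x, trivial, hx.le, ?_, ?_⟩
    · simpa [hψ] using hay0
    · have : ‖x + x‖ = 2 := by
        rw [← two_smul ℝ x, norm_smul, hx]; norm_num
      rw [this]; linarith
  have hr : 0 < ‖ψ‖ := norm_pos_iff.mpr hψ
  set r := ‖ψ‖ with hrdef
  have har : a < r := by
    have h1 : ψ y0 ≤ ‖ψ‖ * ‖y0‖ := (le_abs_self _).trans (ψ.le_opNorm y0)
    have h2 : ‖ψ‖ * ‖y0‖ ≤ ‖ψ‖ * 1 := mul_le_mul_of_nonneg_left hy0 hr.le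
    linarith
  set v : X := r⁻¹ • x with hv
  have hnv : ‖ψ.smulRight v‖ = 1 := by
    rw [ContinuousLinearMap.norm_smulRight_apply, hv, norm_smul, hx, Real.norm_eq_abs,
      abs_of_pos (inv_pos.mpr hr), mul_one]
    exact mul_inv_cancel₀ hr.ne'
  have hT : ‖ContinuousLinearMap.id ℝ X + ψ.smulRight v‖ = 2 := by
    rw [hD ψ v, hnv]; norm_num
  set δ : ℝ := min (ε / 2) ((r - a) / r) with hδ
  have hδ0 : 0 < δ := lt_min (by linarith) (div_pos (by linarith) hr)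
  have hδ1 : δ ≤ ε / 2 := min_le_left _ _
  have hδ2 : r * δ ≤ r - a := by
    have : δ ≤ (r - a) / r := min_le_right _ _
    calc r * δ ≤ r * ((r - a) / r) := mul_le_mul_of_nonneg_left this hr.le
      _ = r - a := by field_simp
  obtain ⟨u0, hu0, hu0T⟩ := ContinuousLinearMap.exists_lt_apply_of_lt_opNorm
    (ContinuousLinearMap.id ℝ X + ψ.smulRight v) (r := 2 - δ) (by rw [hT]; linarith)
  -- sign normalisation
  obtain ⟨u, hu, hψu, huT⟩ : ∃ u : X, ‖u‖ ≤ 1 ∧ 0 ≤ ψ u ∧ 2 - δ < ‖u + ψ u • v‖ := by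
    have hu0T' : 2 - δ < ‖u0 + ψ u0 • v‖ := by simpa using hu0T
    rcases le_total 0 (ψ u0) with h | h
    · exact ⟨u0, hu0.le, h, hu0T'⟩
    · refine ⟨-u0, by rw [norm_neg]; exact hu0.le, by simpa using h, ?_⟩
      have : -u0 + ψ (-u0) • v = -(u0 + ψ u0 • v) := by
        rw [map_neg, neg_smul, neg_add]
      rw [this, norm_neg]; exact hu0T'
  set c : ℝ := ψ u / r with hc
  have hc0 : 0 ≤ c := div_nonneg hψu hr.le
  have hc1 : c ≤ 1 := by
    rw [hc, div_le_one hr]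
    have h1 : ψ u ≤ ‖ψ‖ * ‖u‖ := (le_abs_self _).trans (ψ.le_opNorm u)
    have h2 : ‖ψ‖ * ‖u‖ ≤ ‖ψ‖ * 1 := mul_le_mul_of_nonneg_left hu hr.le
    linarith
  have hcv : ψ u • v = c • x := by
    rw [hv, smul_smul, hc, div_eq_mul_inv]
  rw [hcv] at huT
  have hcx : ‖c • x‖ = c := by rw [norm_smul, hx, Real.norm_eq_abs, abs_of_nonneg hc0, mul_one]
  have hc2 : 1 - δ < c := by
    have : ‖u + c • x‖ ≤ ‖u‖ + ‖c • x‖ := norm_add_le _ _
    rw [hcx] at this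
    linarith
  refine ⟨u, trivial, hu, ?_, ?_⟩
  · have : ψ u = r * c := by rw [hc]; field_simp
    rw [this]
    have : r * (1 - δ) < r * c := mul_lt_mul_of_pos_left hc2 hr
    nlinarith
  · have h1 : u + c • x = (x + u) - (1 - c) • x := by
      rw [sub_smul, one_smul]; abel
    have h2 : ‖u + c • x‖ ≤ ‖x + u‖ + ‖(1 - c) • x‖ := by
      rw [h1]; exact norm_sub_le _ _
    have h3 : ‖(1 - c) • x‖ = 1 - c := by
      rw [norm_smul, hx, Real.norm_eq_abs, abs_of_nonneg (by linarith), mul_one]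
    rw [h3] at h2
    linarith

/-- homogeneous form -/
theorem DPrel.hom {Y : Submodule ℝ X} (h : DPrel Y) (x : X) (hx : x ≠ 0) (ψ : X →L[ℝ] ℝ) (a : ℝ)
    (hne : ∃ y0 ∈ Y, ‖y0‖ ≤ 1 ∧ a < ψ y0) (ε : ℝ) (hε : 0 < ε) :
    ∃ y ∈ Y, ‖y‖ ≤ 1 ∧ a < ψ y ∧ ‖x‖ + 1 - ε < ‖x + y‖ := by
  have hn : 0 < ‖x‖ := norm_pos_iff.mpr hx
  set n := ‖x‖ with hndef
  set u : X := n⁻¹ • x with hu
  have hun : ‖u‖ = 1 := by
    rw [hu, norm_smul, Real.norm_eq_abs, abs_of_pos (inv_pos.mpr hn), ← hndef]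
    exact inv_mul_cancel₀ hn.ne'
  have hxu : x = n • u := by
    rw [hu, smul_smul, mul_inv_cancel₀ hn.ne', one_smul]
  have hε' : 0 < ε / (1 + n) := div_pos hε (by linarith)
  obtain ⟨y, hyY, hy, hay, hxy⟩ := h u hun ψ a hne (ε / (1 + n)) hε'
  refine ⟨y, hyY, hy, hay, ?_⟩
  have e1 : ε / (1 + n) ≤ ε := div_le_self hε.le (by linarith)
  have e2 : n * (ε / (1 + n)) ≤ ε := by
    rw [← mul_div_assoc, div_le_iff₀ (by linarith)]
    nlinarith
  rcases le_total 1 n with h1 | h1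
  · have d : n • (u + y) = (x + y) + (n - 1) • y := by
      rw [smul_add, ← hxu, sub_smul, one_smul]; abel
    have d1 : ‖n • (u + y)‖ ≤ ‖x + y‖ + ‖(n - 1) • y‖ := by rw [d]; exact norm_add_le _ _
    rw [norm_smul, norm_smul, Real.norm_eq_abs, Real.norm_eq_abs, abs_of_pos hn,
      abs_of_nonneg (by linarith)] at d1
    have d2 : (n - 1) * ‖y‖ ≤ (n - 1) * 1 := mul_le_mul_of_nonneg_left hy (by linarith)
    have d3 : n * (2 - ε / (1 + n)) < n * ‖u + y‖ := mul_lt_mul_of_pos_left hxy hn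
    nlinarith
  · have d : u + y = (x + y) + (1 - n) • u := by
      rw [sub_smul, one_smul, ← hxu]; abel
    have d1 : ‖u + y‖ ≤ ‖x + y‖ + ‖(1 - n) • u‖ := by
      calc ‖u + y‖ = ‖(x + y) + (1 - n) • u‖ := by rw [← d]
        _ ≤ _ := norm_add_le _ _
    rw [norm_smul, hun, Real.norm_eq_abs, abs_of_nonneg (by linarith), mul_one] at d1
    linarith

/-- points of the unit ball of `Z` almost norming a functional whose norm is attained on `Z`. -/
theorem exists_slice_point (Z : Submodule ℝ X) (g : X →L[ℝ] ℝ)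
    (hgn : ‖g‖ = ‖g.comp Z.subtypeL‖) (δ : ℝ) (hδ : 0 < δ) :
    ∃ z ∈ Z, ‖z‖ ≤ 1 ∧ ‖g‖ - δ < g z := by
  obtain ⟨z, hz, hgz⟩ := ContinuousLinearMap.exists_lt_apply_of_lt_opNorm
    (g.comp Z.subtypeL) (r := ‖g‖ - δ) (by rw [← hgn]; linarith)
  have hgz' : ‖g‖ - δ < |g (z : X)| := by simpa using hgz
  have hz' : ‖(z : X)‖ ≤ 1 := by simpa using hz.le
  rcases le_total 0 (g (z : X)) with h | h
  · exact ⟨z, z.2, hz', by rwa [abs_of_nonneg h] at hgz'⟩
  · refine ⟨-(z : X), Z.neg_mem z.2, by rwa [norm_neg], ?_⟩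
    rw [abs_of_nonpos h] at hgz'
    simpa using hgz'

/-- choice of the convex combination in the hyperplane step. -/
theorem exists_convex_comb (φ g : X →L[ℝ] ℝ) (y1 y2 : X) (hy1 : ‖y1‖ ≤ 1) (hy2 : ‖y2‖ ≤ 1)
    (s δ : ℝ) (hs : 0 < s) (hδ : 0 < δ)
    (h1 : ‖g‖ - δ < g y1 + s * φ y1) (h2 : ‖g‖ - δ < g y2 - s * φ y2) :
    ∃ l : ℝ, 0 ≤ l ∧ l ≤ 1 ∧ |φ (l • y1 + (1 - l) • y2)| ≤ δ / s ∧
      ‖g‖ - δ - s * ‖φ‖ < g (l • y1 + (1 - l) • y2) := by
  have hg1 : g y1 ≤ ‖g‖ := by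
    have a1 : g y1 ≤ ‖g‖ * ‖y1‖ := (le_abs_self _).trans (g.le_opNorm y1)
    have a2 : ‖g‖ * ‖y1‖ ≤ ‖g‖ * 1 := mul_le_mul_of_nonneg_left hy1 (norm_nonneg _)
    linarith
  have hg2 : g y2 ≤ ‖g‖ := by
    have a1 : g y2 ≤ ‖g‖ * ‖y2‖ := (le_abs_self _).trans (g.le_opNorm y2)
    have a2 : ‖g‖ * ‖y2‖ ≤ ‖g‖ * 1 := mul_le_mul_of_nonneg_left hy2 (norm_nonneg _)
    linarith
  have hφ1 : |φ y1| ≤ ‖φ‖ := by
    have a1 : |φ y1| ≤ ‖φ‖ * ‖y1‖ := φ.le_opNorm y1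
    have a2 : ‖φ‖ * ‖y1‖ ≤ ‖φ‖ * 1 := mul_le_mul_of_nonneg_left hy1 (norm_nonneg _)
    linarith
  have hφ2 : |φ y2| ≤ ‖φ‖ := by
    have a1 : |φ y2| ≤ ‖φ‖ * ‖y2‖ := φ.le_opNorm y2
    have a2 : ‖φ‖ * ‖y2‖ ≤ ‖φ‖ * 1 := mul_le_mul_of_nonneg_left hy2 (norm_nonneg _)
    linarith
  have hsφ : 0 ≤ s * ‖φ‖ := mul_nonneg hs.le (norm_nonneg _)
  have hds : 0 < δ / s := div_pos hδ hs
  rcases le_total (φ y1) 0 with c1 | c1
  · -- take y1
    refine ⟨1, zero_le_one, le_rfl, ?_, ?_⟩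
    · simp only [one_smul, sub_self, zero_smul, add_zero]
      rw [abs_of_nonpos c1, le_div_iff₀ hs]
      nlinarith
    · simp only [one_smul, sub_self, zero_smul, add_zero]
      nlinarith
  rcases le_total 0 (φ y2) with c2 | c2
  · refine ⟨0, le_rfl, zero_le_one, ?_, ?_⟩
    · simp only [zero_smul, sub_zero, one_smul, zero_add]
      rw [abs_of_nonneg c2, le_div_iff₀ hs]
      nlinarith
    · simp only [zero_smul, sub_zero, one_smul, zero_add]
      nlinarith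
  -- genuine convex combination
  rcases eq_or_lt_of_le c1 with c1' | c1'
  · refine ⟨1, zero_le_one, le_rfl, ?_, ?_⟩
    · simp only [one_smul, sub_self, zero_smul, add_zero]
      rw [← c1']; simpa using hds.le
    · simp only [one_smul, sub_self, zero_smul, add_zero]
      rw [← c1'] at h1
      nlinarith
  have hD : 0 < φ y1 - φ y2 := by linarith
  refine ⟨-φ y2 / (φ y1 - φ y2), div_nonneg (by linarith) hD.le, ?_, ?_, ?_⟩
  · rw [div_le_one hD]; linarith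
  · have : φ ((-φ y2 / (φ y1 - φ y2)) • y1 + (1 - -φ y2 / (φ y1 - φ y2)) • y2) = 0 := by
      simp only [map_add, map_smul, smul_eq_mul]
      field_simp
      ring
    rw [this]; simpa using hds.le
  · set l := -φ y2 / (φ y1 - φ y2) with hl
    have hl0 : 0 ≤ l := div_nonneg (by linarith) hD.le
    have hl1 : l ≤ 1 := by rw [hl, div_le_one hD]; linarith
    simp only [map_add, map_smul, smul_eq_mul]
    have b1 : φ y1 ≤ ‖φ‖ := (le_abs_self _).trans hφ1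
    have b2 : -φ y2 ≤ ‖φ‖ := (neg_le_abs _).trans hφ2
    have k1 : l * (‖g‖ - δ - s * ‖φ‖) ≤ l * g y1 := by
      apply mul_le_mul_of_nonneg_left _ hl0
      nlinarith
    have k2 : (1 - l) * (‖g‖ - δ - s * ‖φ‖) ≤ (1 - l) * g y2 := by
      apply mul_le_mul_of_nonneg_left _ (by linarith)
      nlinarith
    -- strictness
    rcases eq_or_lt_of_le hl0 with e | e
    · rw [← e]
      have : ‖g‖ - δ - s * ‖φ‖ < g y2 := by nlinarith
      linarith
    · have k1' : l * (‖g‖ - δ - s * ‖φ‖) < l * g y1 := by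
        apply mul_lt_mul_of_pos_left _ e
        nlinarith
      nlinarith

/-- The relative Daugavet property passes to hyperplanes. -/
theorem DPrel.ker_inf {Y : Submodule ℝ X} (h : DPrel Y) (φ : X →L[ℝ] ℝ) :
    DPrel (LinearMap.ker (φ : X →ₗ[ℝ] ℝ) ⊓ Y) := by
  by_cases hφ : ∀ y ∈ Y, φ y = 0
  · have : LinearMap.ker (φ : X →ₗ[ℝ] ℝ) ⊓ Y = Y := by
      apply inf_eq_right.mpr
      intro y hy
      simpa using hφ y hy
    rw [this]; exact h
  push Not at hφ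
  obtain ⟨e0, he0Y, he0⟩ := hφ
  set e : X := (φ e0)⁻¹ • e0 with he
  have heY : e ∈ Y := Y.smul_mem _ he0Y
  have hφe : φ e = 1 := by
    rw [he, map_smul, smul_eq_mul, inv_mul_cancel₀ he0]
  have heM : 0 < ‖e‖ := by
    rw [norm_pos_iff]; intro h0; rw [h0, map_zero] at hφe; exact zero_ne_one hφe
  rintro x hx ψ a ⟨z0, hz0, hz0n, haz0⟩ ε1 hε1
  set ε := min ε1 1 with hεdef
  have hε : 0 < ε := lt_min hε1 one_pos
  have hεε : ε ≤ ε1 := min_le_left _ _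
  have hεo : ε ≤ 1 := min_le_right _ _
  set Z : Submodule ℝ X := LinearMap.ker (φ : X →ₗ[ℝ] ℝ) ⊓ Y with hZ
  have hZY : ∀ z ∈ Z, z ∈ Y := fun z hz => hz.2
  have hZφ : ∀ z ∈ Z, φ z = 0 := fun z hz => by simpa using hz.1
  obtain ⟨g, hg, hgn⟩ := exists_extension_norm_eq Z (ψ.comp Z.subtypeL)
  have hgψ : ∀ z ∈ Z, g z = ψ z := fun z hz => by simpa using hg ⟨z, hz⟩
  have hgcomp : g.comp Z.subtypeL = ψ.comp Z.subtypeL := by
    ext z; simpa using hg z
  have hgn' : ‖g‖ = ‖g.comp Z.subtypeL‖ := by rw [hgcomp]; exact hgn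
  set r := ‖g‖ with hr
  have hr0 : 0 ≤ r := norm_nonneg _
  have har : a < r := by
    have a1 : g z0 ≤ ‖g‖ * ‖z0‖ := (le_abs_self _).trans (g.le_opNorm z0)
    have a2 : ‖g‖ * ‖z0‖ ≤ ‖g‖ * 1 := mul_le_mul_of_nonneg_left hz0n (norm_nonneg _)
    rw [hgψ z0 hz0] at a1
    linarith
  -- constants
  set d := r - a with hd
  have hd0 : 0 < d := by linarith
  set K := ‖φ‖ with hK
  have hK0 : 0 ≤ K := norm_nonneg _
  set M := ‖e‖ with hM
  set s := d / (4 * (K + 1)) with hs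
  have hs0 : 0 < s := div_pos hd0 (by linarith)
  have hsK : s * K ≤ d / 4 := by
    rw [hs, div_mul_eq_mul_div, div_le_iff₀ (by linarith)]
    nlinarith
  set κ := min (d / (8 * (r + 1))) (ε / 8) with hκ
  have hκ0 : 0 < κ := lt_min (div_pos hd0 (by linarith)) (by linarith)
  have hκ1 : 2 * r * κ ≤ d / 4 := by
    have : κ ≤ d / (8 * (r + 1)) := min_le_left _ _
    have h2 : r * κ ≤ r * (d / (8 * (r + 1))) := mul_le_mul_of_nonneg_left this hr0
    have h3 : r * (d / (8 * (r + 1))) ≤ d / 8 := by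
      rw [← mul_div_assoc, div_le_iff₀ (by linarith)]
      nlinarith
    linarith
  have hκ2 : κ ≤ ε / 8 := min_le_right _ _
  set δ := min (d / 4) (κ * s / M) with hδ
  have hδ0 : 0 < δ := lt_min (by linarith) (div_pos (mul_pos hκ0 hs0) heM)
  have hδ1 : δ ≤ d / 4 := min_le_left _ _
  have hδ2 : δ / s * M ≤ κ := by
    have : δ ≤ κ * s / M := min_le_right _ _
    rw [div_mul_eq_mul_div, div_le_iff₀ hs0]
    rwa [le_div_iff₀ heM] at this
  obtain ⟨z1, hz1, hz1n, hz1g⟩ := exists_slice_point Z g hgn' δ hδ0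
  -- first point
  obtain ⟨y1, hy1Y, hy1, hy1g, hy1x⟩ := h x hx (g + s • φ) (r - δ)
    ⟨z1, hZY z1 hz1, hz1n, by simpa [hZφ z1 hz1] using hz1g⟩ (ε / 4) (by linarith)
  have hxy1 : x + y1 ≠ 0 := by
    intro h0
    rw [h0, norm_zero] at hy1x
    linarith
  -- second point
  obtain ⟨y2, hy2Y, hy2, hy2g, hy2x⟩ := h.hom (x + y1) hxy1 (g - s • φ) (r - δ)
    ⟨z1, hZY z1 hz1, hz1n, by simpa [hZφ z1 hz1] using hz1g⟩ (ε / 4) (by linarith)
  have hy1g' : ‖g‖ - δ < g y1 + s * φ y1 := by simpa using hy1g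
  have hy2g' : ‖g‖ - δ < g y2 - s * φ y2 := by simpa using hy2g
  obtain ⟨l, hl0, hl1, hlφ, hlg⟩ := exists_convex_comb φ g y1 y2 hy1 hy2 s δ hs0 hδ0 hy1g' hy2g'
  set y : X := l • y1 + (1 - l) • y2 with hy
  have hyY : y ∈ Y := Y.add_mem (Y.smul_mem _ hy1Y) (Y.smul_mem _ hy2Y)
  have hyn : ‖y‖ ≤ 1 := by
    calc ‖y‖ ≤ ‖l • y1‖ + ‖(1 - l) • y2‖ := norm_add_le _ _
      _ = l * ‖y1‖ + (1 - l) * ‖y2‖ := by
          rw [norm_smul, norm_smul, Real.norm_eq_abs, Real.norm_eq_abs, abs_of_nonneg hl0,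
            abs_of_nonneg (by linarith)]
      _ ≤ l * 1 + (1 - l) * 1 := by
          apply add_le_add (mul_le_mul_of_nonneg_left hy1 hl0)
            (mul_le_mul_of_nonneg_left hy2 (by linarith))
      _ = 1 := by ring
  have hxy : 2 - ε / 2 < ‖x + y‖ := by
    set y' : X := (1 - l) • y1 + l • y2 with hy'
    have hyn' : ‖y'‖ ≤ 1 := by
      calc ‖y'‖ ≤ ‖(1 - l) • y1‖ + ‖l • y2‖ := norm_add_le _ _
        _ = (1 - l) * ‖y1‖ + l * ‖y2‖ := by
            rw [norm_smul, norm_smul, Real.norm_eq_abs, Real.norm_eq_abs, abs_of_nonneg hl0,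
              abs_of_nonneg (by linarith)]
        _ ≤ (1 - l) * 1 + l * 1 := by
            apply add_le_add (mul_le_mul_of_nonneg_left hy1 (by linarith))
              (mul_le_mul_of_nonneg_left hy2 hl0)
        _ = 1 := by ring
    have e1 : x + y1 + y2 = (x + y) + y' := by
      rw [hy, hy', sub_smul, sub_smul, one_smul, one_smul]; abel
    have e2 : ‖x + y1 + y2‖ ≤ ‖x + y‖ + ‖y'‖ := by rw [e1]; exact norm_add_le _ _
    linarith
  -- projection to Z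
  set z' : X := y - φ y • e with hz'
  have hz'Z : z' ∈ Z := by
    refine ⟨?_, Y.sub_mem hyY (Y.smul_mem _ heY)⟩
    simp [hz', hφe]
  have hz'y : ‖z' - y‖ ≤ κ := by
    have : z' - y = -(φ y • e) := by rw [hz']; abel
    rw [this, norm_neg, norm_smul, Real.norm_eq_abs]
    calc |φ y| * ‖e‖ ≤ δ / s * M := mul_le_mul_of_nonneg_right hlφ heM.le
      _ ≤ κ := hδ2
  have hz'n : ‖z'‖ ≤ 1 + κ := by
    calc ‖z'‖ = ‖y + (z' - y)‖ := by congr 1; abel
      _ ≤ ‖y‖ + ‖z' - y‖ := norm_add_le _ _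
      _ ≤ 1 + κ := add_le_add hyn hz'y
  set z : X := (1 + κ)⁻¹ • z' with hz
  have h1κ : 0 < 1 + κ := by linarith
  have hzZ : z ∈ Z := Z.smul_mem _ hz'Z
  have hzn : ‖z‖ ≤ 1 := by
    rw [hz, norm_smul, Real.norm_eq_abs, abs_of_pos (inv_pos.mpr h1κ), inv_mul_le_iff₀ h1κ, mul_one]
    exact hz'n
  have hzz' : ‖z - z'‖ ≤ κ := by
    have : z - z' = -(κ • z) := by
      have hz'' : z' = (1 + κ) • z := by
        rw [hz, smul_smul, mul_inv_cancel₀ h1κ.ne', one_smul]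
      rw [hz'', add_smul, one_smul]
      abel
    rw [this, norm_neg, norm_smul, Real.norm_eq_abs, abs_of_pos hκ0]
    calc κ * ‖z‖ ≤ κ * 1 := mul_le_mul_of_nonneg_left hzn hκ0.le
      _ = κ := mul_one _
  have hzy : ‖z - y‖ ≤ 2 * κ := by
    calc ‖z - y‖ = ‖(z - z') + (z' - y)‖ := by congr 1; abel
      _ ≤ ‖z - z'‖ + ‖z' - y‖ := norm_add_le _ _
      _ ≤ 2 * κ := by linarith
  refine ⟨z, hzZ, hzn, ?_, ?_⟩
  · rw [← hgψ z hzZ]
    have e1 : g y - g z ≤ r * (2 * κ) := by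
      calc g y - g z = g (y - z) := by rw [map_sub]
        _ ≤ ‖g‖ * ‖y - z‖ := (le_abs_self _).trans (g.le_opNorm _)
        _ ≤ r * (2 * κ) := by
            rw [norm_sub_rev]
            exact mul_le_mul_of_nonneg_left hzy hr0
    have e2 : r - δ - s * K < g y := hlg
    have e3 : r * (2 * κ) = 2 * r * κ := by ring
    linarith
  · have e1 : ‖x + y‖ ≤ ‖x + z‖ + ‖z - y‖ := by
      calc ‖x + y‖ = ‖(x + z) - (z - y)‖ := by congr 1; abel
        _ ≤ _ := norm_sub_le _ _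
    linarith

theorem dprel_kerL (hD : L1Subspace.HasDaugavetProperty X) (L : List (X →L[ℝ] ℝ)) :
    DPrel (kerL L) := by
  induction L with
  | nil => exact dprel_top hD
  | cons φ L ih => exact ih.ker_inf φ

/-- Statement `(*)`. -/
theorem exists_unit_in_cof (hD : L1Subspace.HasDaugavetProperty X) (x : X) (hx : ‖x‖ = 1)
    (S : Submodule ℝ X) (hS : Cof S) (η : ℝ) (hη : 0 < η) :
    ∃ y ∈ S, ‖y‖ = 1 ∧ ‖x + (2 : ℝ) • y‖ ≤ 1 + η := by
  obtain ⟨L, hL⟩ := exists_kerL_eq hS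
  obtain ⟨θ, hθn, hθx⟩ := exists_dual_vector ℝ x (by rw [hx]; exact one_ne_zero)
  have hθx' : θ x = 1 := by simpa [hx] using hθx
  set L' : List (X →L[ℝ] ℝ) := L.map (fun φ => φ - φ x • θ) with hL'
  have hxX' : x ∈ kerL L' := by
    rw [mem_kerL]
    intro φ' hφ'
    rw [hL', List.mem_map] at hφ'
    obtain ⟨φ, -, rfl⟩ := hφ'
    simp [hθx']
  set δ := min (η / 3) (1 / 2) with hδ
  have hδ0 : 0 < δ := lt_min (by linarith) (by norm_num)
  have hδ1 : δ ≤ η / 3 := min_le_left _ _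
  have hδ2 : δ ≤ 1 / 2 := min_le_right _ _
  obtain ⟨z, hzX', hzn, hθz, hxz⟩ := dprel_kerL hD L' (-x) (by rw [norm_neg]; exact hx) θ (1 - δ)
    ⟨x, hxX', hx.le, by rw [hθx']; linarith⟩ δ hδ0
  have hθz1 : θ z ≤ 1 := by
    have a1 : θ z ≤ ‖θ‖ * ‖z‖ := (le_abs_self _).trans (θ.le_opNorm z)
    rw [hθn, one_mul] at a1
    linarith
  set c := θ z - 1 with hc
  set w : X := z - x - c • x with hw
  have hwS : w ∈ S := by
    rw [← hL, mem_kerL]
    intro φ hφ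
    have h1 : (φ - φ x • θ) z = 0 := by
      rw [mem_kerL] at hzX'
      exact hzX' _ (by rw [hL', List.mem_map]; exact ⟨φ, hφ, rfl⟩)
    have h2 : φ z = φ x * θ z := by
      simp only [sub_apply, smul_apply, smul_eq_mul] at h1
      linarith
    rw [hw, map_sub, map_sub, map_smul, smul_eq_mul, h2, hc]
    ring
  have hcabs : |c| ≤ δ := by
    rw [abs_le]; constructor <;> linarith
  have hcx : ‖c • x‖ ≤ δ := by
    rw [norm_smul, hx, mul_one]; exact hcabs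
  have hzx : ‖z - x‖ ≤ 2 := by
    calc ‖z - x‖ ≤ ‖z‖ + ‖x‖ := norm_sub_le _ _
      _ ≤ 2 := by linarith
  have hzx' : 2 - δ < ‖z - x‖ := by
    have : -x + z = z - x := by abel
    rwa [this] at hxz
  have hw1 : ‖w‖ ≤ 2 + δ := by
    calc ‖w‖ ≤ ‖z - x‖ + ‖c • x‖ := norm_sub_le _ _
      _ ≤ 2 + δ := by linarith
  have hw2 : 2 - 2 * δ < ‖w‖ := by
    have : ‖z - x‖ ≤ ‖w‖ + ‖c • x‖ := by
      calc ‖z - x‖ = ‖w + c • x‖ := by rw [hw]; congr 1; abel
        _ ≤ _ := norm_add_le _ _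
    linarith
  have hw0 : 0 < ‖w‖ := by linarith
  set y : X := ‖w‖⁻¹ • w with hy
  have hyn : ‖y‖ = 1 := by
    rw [hy, norm_smul, norm_inv, norm_norm, inv_mul_cancel₀ hw0.ne']
  have hwy : w = ‖w‖ • y := by
    rw [hy, smul_smul, mul_inv_cancel₀ hw0.ne', one_smul]
  refine ⟨y, S.smul_mem _ hwS, hyn, ?_⟩
  have e1 : x + (2 : ℝ) • y = (z - c • x) + (2 - ‖w‖) • y := by
    have e0 : (2 - ‖w‖) • y = (2 : ℝ) • y - w := by
      rw [sub_smul (2 : ℝ) ‖w‖ y, ← hwy]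
    rw [e0, hw]; abel
  rw [e1]
  calc ‖(z - c • x) + (2 - ‖w‖) • y‖ ≤ ‖z - c • x‖ + ‖(2 - ‖w‖) • y‖ := norm_add_le _ _
    _ ≤ (‖z‖ + ‖c • x‖) + |2 - ‖w‖| := by
        rw [norm_smul, hyn, mul_one, Real.norm_eq_abs]
        exact add_le_add_left (norm_sub_le _ _) _
    _ ≤ (1 + δ) + 2 * δ := by
        apply add_le_add (add_le_add hzn hcx)
        rw [abs_le]; constructor <;> linarith
    _ ≤ 1 + η := by linarith

theorem norm_add_smul_le {x y : X} (hx : ‖x‖ = 1) (hy : ‖y‖ = 1) {η : ℝ} (hη : 0 < η)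
    (h : ‖x + (2 : ℝ) • y‖ ≤ 1 + η) {t : ℝ} (ht : 0 < t) :
    ‖x + t • y‖ ≤ 1 + max 0 (t - 2) + η := by
  rcases le_total t 2 with h2 | h2
  · have e : x + t • y = (1 - t / 2) • x + (t / 2) • (x + (2 : ℝ) • y) := by
      rw [smul_add, smul_smul, sub_smul, one_smul]
      have : t / 2 * 2 = t := by ring
      rw [this]; abel
    have h0 : (0 : ℝ) ≤ max 0 (t - 2) := le_max_left _ _
    calc ‖x + t • y‖ = ‖(1 - t / 2) • x + (t / 2) • (x + (2 : ℝ) • y)‖ := by rw [e]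
      _ ≤ ‖(1 - t / 2) • x‖ + ‖(t / 2) • (x + (2 : ℝ) • y)‖ := norm_add_le _ _
      _ = (1 - t / 2) * 1 + (t / 2) * ‖x + (2 : ℝ) • y‖ := by
          rw [norm_smul, norm_smul, hx, Real.norm_eq_abs, Real.norm_eq_abs,
            abs_of_nonneg (by linarith), abs_of_nonneg (by linarith)]
      _ ≤ (1 - t / 2) * 1 + (t / 2) * (1 + η) := by
          have := mul_le_mul_of_nonneg_left h (by linarith : (0 : ℝ) ≤ t / 2)
          linarith
      _ ≤ 1 + max 0 (t - 2) + η := by nlinarith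
  · have e : x + t • y = (x + (2 : ℝ) • y) + (t - 2) • y := by
      rw [sub_smul]; abel
    have h0 : t - 2 ≤ max 0 (t - 2) := le_max_right _ _
    calc ‖x + t • y‖ = ‖(x + (2 : ℝ) • y) + (t - 2) • y‖ := by rw [e]
      _ ≤ ‖x + (2 : ℝ) • y‖ + ‖(t - 2) • y‖ := norm_add_le _ _
      _ = ‖x + (2 : ℝ) • y‖ + (t - 2) := by
          rw [norm_smul, hy, Real.norm_eq_abs, abs_of_nonneg (by linarith), mul_one]
      _ ≤ 1 + max 0 (t - 2) + η := by linarith

theorem oneSidedLE [CompleteSpace X] (hD : L1Subspace.HasDaugavetProperty X) (t : ℝ) (ht : 0 < t) :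
    (mkB X).OneSidedModulusLE (mkB X).norm t (max 0 (t - 2)) := by
  intro x hx F hF η hη
  obtain ⟨S, rfl, hS⟩ := (isCof_iff F).1 hF
  obtain ⟨y, hyS, hyn, hxy⟩ := exists_unit_in_cof hD x hx S hS η hη
  refine ⟨y, hyS, hyn, ?_⟩
  have := norm_add_smul_le hx hyn hη hxy ht
  show ‖x + t • y‖ - 1 ≤ max 0 (t - 2) + η
  linarith

theorem midpointLE [CompleteSpace X] (hD : L1Subspace.HasDaugavetProperty X) (t : ℝ) (ht : 0 < t) :
    (mkB X).MidpointModulusLE (mkB X).norm t (max (t / 2) (t - 1)) := by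
  intro x hx F hF η hη
  obtain ⟨S, rfl, hS⟩ := (isCof_iff F).1 hF
  obtain ⟨y, hyS, hyn, hxy⟩ := exists_unit_in_cof hD x hx S hS η hη
  refine ⟨y, hyS, hyn, ?_⟩
  have h1 := norm_add_smul_le hx hyn hη hxy ht
  have hx' : ‖x‖ = 1 := hx
  have h2 : ‖x - t • y‖ ≤ 1 + t := by
    calc ‖x - t • y‖ ≤ ‖x‖ + ‖t • y‖ := norm_sub_le _ _
      _ = 1 + t := by rw [norm_smul, hyn, hx', Real.norm_eq_abs, abs_of_pos ht, mul_one]
  show (‖x + t • y‖ + ‖x - t • y‖) / 2 - 1 ≤ max (t / 2) (t - 1) + η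
  have h3 : (max 0 (t - 2) + t) / 2 ≤ max (t / 2) (t - 1) := by
    rcases le_total 0 (t - 2) with h | h
    · rw [max_eq_right h]
      have := le_max_right (t / 2) (t - 1)
      linarith
    · rw [max_eq_left h]
      have := le_max_left (t / 2) (t - 1)
      linarith
  linarith

theorem oneSidedGE [CompleteSpace X] (t : ℝ) (ht : 0 < t) :
    (mkB X).OneSidedModulusGE (mkB X).norm t (max 0 (t - 2)) := by
  intro x hx η hη
  have hx' : ‖x‖ = 1 := hx
  obtain ⟨θ, hθn, hθx⟩ := exists_dual_vector ℝ x (by rw [hx']; exact one_ne_zero)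
  have hθx' : θ x = 1 := by simpa [hx'] using hθx
  refine ⟨kerL [θ], isCof_kerL [θ], ?_⟩
  intro y hy hyn
  have hyn' : ‖y‖ = 1 := hyn
  have hθy : θ y = 0 := by
    have := (mem_kerL (L := [θ]) (x := y)).1 hy
    exact this θ (by simp)
  show max 0 (t - 2) - η ≤ ‖x + t • y‖ - 1
  have h1 : 1 ≤ ‖x + t • y‖ := by
    have a1 : θ (x + t • y) ≤ ‖θ‖ * ‖x + t • y‖ := (le_abs_self _).trans (θ.le_opNorm _)
    rw [hθn, one_mul, map_add, map_smul, hθy, hθx', smul_zero, add_zero] at a1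
    exact a1
  have h2 : t - 1 ≤ ‖x + t • y‖ := by
    have : ‖t • y‖ ≤ ‖x + t • y‖ + ‖x‖ := by
      calc ‖t • y‖ = ‖(x + t • y) - x‖ := by congr 1; abel
        _ ≤ _ := norm_sub_le _ _
    rw [norm_smul, hyn', hx', Real.norm_eq_abs, abs_of_pos ht, mul_one] at this
    linarith
  have h3 : max 0 (t - 2) ≤ ‖x + t • y‖ - 1 := max_le (by linarith) (by linarith)
  linarith

theorem rank_all (hD : L1Subspace.HasDaugavetProperty X) (k : ℕ) :
    ∀ x : X, x ≠ 0 → Rank 2 k x := by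
  induction k with
  | zero => intro x _; trivial
  | succ k ih =>
    intro x hx S hS η hη
    have hn : 0 < ‖x‖ := norm_pos_iff.mpr hx
    set n := ‖x‖ with hndef
    set u : X := n⁻¹ • x with hu
    have hun : ‖u‖ = 1 := by
      rw [hu, norm_smul, Real.norm_eq_abs, abs_of_pos (inv_pos.mpr hn), ← hndef]
      exact inv_mul_cancel₀ hn.ne'
    have hxu : x = n • u := by
      rw [hu, smul_smul, mul_inv_cancel₀ hn.ne', one_smul]
    obtain ⟨y0, hy0S, hy0n, hy0⟩ := exists_unit_in_cof hD u hun S hS η hη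
    set y : X := (2 * n) • y0 with hy
    have hyn : ‖y‖ = 2 * n := by
      rw [hy, norm_smul, hy0n, Real.norm_eq_abs, abs_of_pos (by linarith), mul_one]
    have hxy : x + y = n • (u + (2 : ℝ) • y0) := by
      rw [smul_add, ← hxu, smul_smul, hy, mul_comm n 2]
    have hxyn : ‖x + y‖ ≤ (1 + η) * n := by
      rw [hxy, norm_smul, Real.norm_eq_abs, abs_of_pos hn, mul_comm]
      exact mul_le_mul_of_nonneg_right hy0 hn.le
    refine ⟨y, y, S.smul_mem _ hy0S, ?_, hyn.ge, hxyn, ih _ ?_⟩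
    · rw [sub_self, norm_zero]; positivity
    · intro h0
      have : ‖y‖ ≤ ‖x + y‖ + ‖x‖ := by
        calc ‖y‖ = ‖(x + y) - x‖ := by congr 1; abel
          _ ≤ _ := norm_sub_le _ _
      rw [h0, norm_zero, hyn, ← hndef] at this
      linarith

theorem not_isAUC [CompleteSpace X] (hD : L1Subspace.HasDaugavetProperty X)
    (hinf : ¬ FiniteDimensional ℝ X) (N : X → ℝ) (hN : (mkB X).IsEquivNorm N) :
    ¬ (mkB X).IsAUC N := by
  have hnt : ∃ x : X, x ≠ 0 := by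
    by_contra hcon
    push Not at hcon
    apply hinf
    have : Subsingleton X := ⟨fun a b => by rw [hcon a, hcon b]⟩
    infer_instance
  obtain ⟨x, hx⟩ := hnt
  exact not_isAUC_of_rank (δ := 2) (by norm_num) (fun k => ⟨x, hx, rank_all hD k x hx⟩) N hN

/-- the trivial half of the midpoint lower bound -/
theorem midpoint_ge_sub_one {x y : X} (hy : ‖y‖ = 1) {t : ℝ} (ht : 0 < t) :
    t - 1 ≤ (‖x + t • y‖ + ‖x - t • y‖) / 2 - 1 := by
  have : ‖(2 * t) • y‖ ≤ ‖x + t • y‖ + ‖x - t • y‖ := by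
    calc ‖(2 * t) • y‖ = ‖(x + t • y) - (x - t • y)‖ := by
          congr 1; rw [two_mul, add_smul]; abel
      _ ≤ _ := norm_sub_le _ _
  rw [norm_smul, hy, Real.norm_eq_abs, abs_of_pos (by linarith), mul_one] at this
  linarith

end Crest.Agent.helper90
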