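import Mathlib
import Crest.Prelude.Def_AsymptoticConvexity

/-!
General lemmas on asymptotic uniform convexity used for S0168.
-/

open Crest.AnalysisR Filter Topology

namespace Crest.Agent.helper92

/-- A sequence with square-root growth of its partial sums comes arbitrarily close to any closed
subspace of finite codimension. -/
lemma exists_near_of_sqrt_bound {X : Type*} [NormedAddCommGroup X] [NormedSpace ℝ X]
    (S : Submodule ℝ X) (hS : IsClosed (S : Set X)) (hfd : FiniteDimensional ℝ (X ⧸ S))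
    (y : ℕ → X) (C : ℝ) (hy : ∀ B : Finset ℕ, ‖∑ n ∈ B, y n‖ ≤ C * Real.sqrt B.card)
    {η : ℝ} (hη : 0 < η) : ∃ n, ∃ y' ∈ S, ‖y n - y'‖ < η := by
  have : IsClosed (S : Set X) := hS
  by_contra hcon
  push Not at hcon
  set z : ℕ → X ⧸ S := fun n => Submodule.Quotient.mk (y n) with hz
  -- lower bound
  have hlow : ∀ n, η ≤ ‖z n‖ := by
    intro n
    by_contra hlt
    push Not at hlt
    obtain ⟨w, hw, hwn⟩ := Submodule.Quotient.norm_mk_lt (z n) (sub_pos.mpr hlt)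
    have hmem : y n - w ∈ S := by
      rw [← Submodule.Quotient.eq]
      exact hw.symm
    have := hcon n (y n - w) hmem
    rw [sub_sub_cancel] at this
    linarith
  have hC : ∀ n, ‖z n‖ ≤ C := by
    intro n
    have h1 := hy {n}
    simp at h1
    exact (Submodule.Quotient.norm_mk_le S (y n)).trans h1
  have : ProperSpace (X ⧸ S) := FiniteDimensional.proper_real _
  obtain ⟨a, -, φ, hφ, hlim⟩ := tendsto_subseq_of_bounded (Metric.isBounded_closedBall (x := (0 : X ⧸ S)) (r := C))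
    (x := z) (fun n => by simpa using hC n)
  have ha : η ≤ ‖a‖ := by
    have : Tendsto (fun j => ‖(z ∘ φ) j‖) atTop (𝓝 ‖a‖) := hlim.norm
    exact ge_of_tendsto' this (fun j => hlow _)
  have hev : ∀ᶠ j in atTop, ‖z (φ j) - a‖ < η / 2 := by
    have := (Metric.tendsto_nhds.mp hlim) (η / 2) (half_pos hη)
    simpa [dist_eq_norm] using this
  obtain ⟨J, hJ⟩ := eventually_atTop.mp hev
  -- the key estimate
  have hkey : ∀ k : ℕ, (k : ℝ) * (η / 2) ≤ C * Real.sqrt k := by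
    intro k
    set B : Finset ℕ := (Finset.Ico J (J + k)).image φ with hB
    have hcard : B.card = k := by
      rw [hB, Finset.card_image_of_injective _ hφ.injective]; simp
    have h1 : ‖∑ n ∈ B, z n‖ ≤ C * Real.sqrt k := by
      have : ∑ n ∈ B, z n = Submodule.Quotient.mk (∑ n ∈ B, y n) := by
        rw [hz]
        exact (map_sum (Submodule.mkQ S) y B).symm
      rw [this]
      refine (Submodule.Quotient.norm_mk_le S _).trans ?_
      have := hy B
      rwa [hcard] at this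
    have h2 : ∑ n ∈ B, z n = ∑ j ∈ Finset.Ico J (J + k), z (φ j) := by
      rw [hB, Finset.sum_image (fun a _ b _ h => hφ.injective h)]
    have h3 : ∑ j ∈ Finset.Ico J (J + k), z (φ j)
        = (k : ℝ) • a + ∑ j ∈ Finset.Ico J (J + k), (z (φ j) - a) := by
      rw [Finset.sum_sub_distrib]
      simp [Nat.cast_smul_eq_nsmul]
    have h4 : ‖∑ j ∈ Finset.Ico J (J + k), (z (φ j) - a)‖ ≤ (k : ℝ) * (η / 2) := by
      refine (norm_sum_le _ _).trans ?_
      have : ∑ j ∈ Finset.Ico J (J + k), ‖z (φ j) - a‖ ≤ ∑ j ∈ Finset.Ico J (J + k), (η / 2) :=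
        Finset.sum_le_sum (fun j hj => (hJ j (Finset.mem_Ico.mp hj).1).le)
      simpa using this
    have h5 : (k : ℝ) * η ≤ ‖(k : ℝ) • a‖ := by
      rw [norm_smul, Real.norm_of_nonneg (Nat.cast_nonneg k)]
      exact mul_le_mul_of_nonneg_left ha (Nat.cast_nonneg k)
    have h6 : ‖(k : ℝ) • a‖ ≤ ‖∑ n ∈ B, z n‖ + ‖∑ j ∈ Finset.Ico J (J + k), (z (φ j) - a)‖ := by
      have : (k : ℝ) • a = ∑ n ∈ B, z n - ∑ j ∈ Finset.Ico J (J + k), (z (φ j) - a) := by
        rw [h2, h3]; abel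
      rw [this]
      exact norm_sub_le _ _
    linarith
  -- contradiction for large k
  have hCpos : 0 ≤ C := (norm_nonneg _).trans (hC 0)
  obtain ⟨k, hk⟩ := exists_nat_gt ((2 * C / η) ^ 2)
  have hk0 : (0 : ℝ) < k := lt_of_le_of_lt (sq_nonneg _) hk
  have h7 := hkey k
  have h8 : Real.sqrt k * Real.sqrt k = k := Real.mul_self_sqrt hk0.le
  have h9 : 0 < Real.sqrt k := Real.sqrt_pos.mpr hk0
  have h10 : Real.sqrt k * (η / 2) ≤ C := by
    have : Real.sqrt k * (Real.sqrt k * (η / 2)) ≤ Real.sqrt k * C := by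
      calc Real.sqrt k * (Real.sqrt k * (η / 2)) = (k : ℝ) * (η / 2) := by rw [← mul_assoc, h8]
        _ ≤ C * Real.sqrt k := h7
        _ = Real.sqrt k * C := mul_comm _ _
    exact le_of_mul_le_mul_left this h9
  have h11 : Real.sqrt k ≤ 2 * C / η := by
    rw [le_div_iff₀ hη]; linarith
  have h12 : (k : ℝ) ≤ (2 * C / η) ^ 2 := by
    rw [← h8, sq]
    exact mul_le_mul h11 h11 h9.le (by positivity)
  linarith


/-- One step growth of an equivalent AUC norm. -/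
lemma auc_growth {X : Type*} [NormedAddCommGroup X] [NormedSpace ℝ X] (Cof : Set X → Prop)
    (hCof : ∀ F, Cof F → ∃ S : Submodule ℝ X, (S : Set X) = F)
    (N : X → ℝ) (hadd : ∀ x y, N (x + y) ≤ N x + N y) (hsmul : ∀ (a : ℝ) x, N (a • x) = |a| * N x)
    (a b : ℝ) (ha : 0 < a) (hb : 0 < b) (hab : ∀ x, a * ‖x‖ ≤ N x ∧ N x ≤ b * ‖x‖)
    (hauc : ∀ t : ℝ, 0 < t → ∃ c : ℝ, 0 < c ∧ ∀ x, N x = 1 → ∃ F, Cof F ∧
      ∀ y ∈ F, N y = 1 → c ≤ N (x + t • y) - 1)
    (d : ℝ) (hd : 0 < d) :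
    ∃ c : ℝ, 0 < c ∧ ∀ x, x ≠ 0 → ∃ F, Cof F ∧
      ∀ y ∈ F, d * ‖x‖ ≤ ‖y‖ → (1 + c) * N x ≤ N (x + y) := by
  set t₀ := a * d / b with ht₀
  have ht₀pos : 0 < t₀ := by positivity
  obtain ⟨c, hc, hcx⟩ := hauc t₀ ht₀pos
  refine ⟨c, hc, fun x hx => ?_⟩
  have hxn : 0 < ‖x‖ := norm_pos_iff.mpr hx
  set ρ := N x with hρ
  have hρpos : 0 < ρ := lt_of_lt_of_le (mul_pos ha hxn) (hab x).1
  have hxhat : N (ρ⁻¹ • x) = 1 := by
    rw [hsmul, abs_of_pos (inv_pos.mpr hρpos), ← hρ, inv_mul_cancel₀ hρpos.ne']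
  obtain ⟨F, hF, hFy⟩ := hcx _ hxhat
  refine ⟨F, hF, fun y hy hdy => ?_⟩
  obtain ⟨S, rfl⟩ := hCof F hF
  set σ := N y with hσ
  have h1 : t₀ * ρ ≤ σ := by
    have e1 : ρ ≤ b * ‖x‖ := (hab x).2
    have e2 : a * ‖y‖ ≤ σ := (hab y).1
    have e3 : a * (d * ‖x‖) ≤ a * ‖y‖ := mul_le_mul_of_nonneg_left hdy ha.le
    have e4 : t₀ * ρ ≤ t₀ * (b * ‖x‖) := mul_le_mul_of_nonneg_left e1 ht₀pos.le
    have e5 : t₀ * (b * ‖x‖) = a * (d * ‖x‖) := by rw [ht₀]; field_simp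
    linarith
  have hσpos : 0 < σ := lt_of_lt_of_le (mul_pos ht₀pos hρpos) h1
  have hyhat : N (σ⁻¹ • y) = 1 := by
    rw [hsmul, abs_of_pos (inv_pos.mpr hσpos), ← hσ, inv_mul_cancel₀ hσpos.ne']
  have hmem : σ⁻¹ • y ∈ (S : Set X) := S.smul_mem _ hy
  have h2 := hFy _ hmem hyhat
  set lam := t₀ * ρ / σ with hlam
  have hlam0 : 0 < lam := by positivity
  have hlam1 : lam ≤ 1 := by rw [hlam, div_le_one hσpos]; exact h1
  have h3 : ρ⁻¹ • x + t₀ • σ⁻¹ • y = (1 - lam) • (ρ⁻¹ • x) + (lam * ρ⁻¹) • (x + y) := by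
    have e : lam * ρ⁻¹ = t₀ * σ⁻¹ := by rw [hlam]; field_simp
    rw [smul_add, e, smul_smul, smul_smul, sub_mul, one_mul, ← e, sub_smul]
    abel
  have h4 : N (ρ⁻¹ • x + t₀ • σ⁻¹ • y) ≤ (1 - lam) + lam * ρ⁻¹ * N (x + y) := by
    rw [h3]
    refine (hadd _ _).trans ?_
    rw [hsmul, hsmul (lam * ρ⁻¹), hxhat, abs_of_nonneg (by linarith : 0 ≤ 1 - lam),
      abs_of_nonneg (by positivity : 0 ≤ lam * ρ⁻¹), mul_one]
  have h5 : c + lam ≤ lam * ρ⁻¹ * N (x + y) := by linarith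
  have h6 : lam * (1 + c) ≤ c + lam := by nlinarith
  have h7 : lam * (1 + c) ≤ lam * (ρ⁻¹ * N (x + y)) := by
    rw [← mul_assoc]; linarith
  have h8 : 1 + c ≤ ρ⁻¹ * N (x + y) := le_of_mul_le_mul_left h7 hlam0
  calc (1 + c) * ρ ≤ (ρ⁻¹ * N (x + y)) * ρ := mul_le_mul_of_nonneg_right h8 hρpos.le
    _ = N (x + y) := by field_simp

/-- A bounded tree with weakly-null-like increments of norm at least one forbids equivalent
AUC norms. -/
theorem no_auc_of_tree {X : Type*} [NormedAddCommGroup X] [NormedSpace ℝ X] (Cof : Set X → Prop)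
    (hCof : ∀ F, Cof F → ∃ S : Submodule ℝ X, (S : Set X) = F)
    (u : List ℕ → X) (hu1 : ∀ v, v ≠ [] → ‖u v‖ = 1)
    (hstep : ∀ v n, 1 ≤ ‖u (n :: v) - u v‖)
    (hnear : ∀ v F, Cof F → ∀ η : ℝ, 0 < η → ∃ n, ∃ y' ∈ F, ‖(u (n :: v) - u v) - y'‖ < η)
    (N : X → ℝ) (hadd : ∀ x y, N (x + y) ≤ N x + N y) (hsmul : ∀ (a : ℝ) x, N (a • x) = |a| * N x)
    (a b : ℝ) (ha : 0 < a) (hab : ∀ x, a * ‖x‖ ≤ N x ∧ N x ≤ b * ‖x‖)
    (hauc : ∀ t : ℝ, 0 < t → ∃ c : ℝ, 0 < c ∧ ∀ x, N x = 1 → ∃ F, Cof F ∧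
      ∀ y ∈ F, N y = 1 → c ≤ N (x + t • y) - 1) : False := by
  have hb : 0 < b := by
    have h := hab (u [0])
    rw [hu1 [0] (by simp)] at h
    linarith [h.1, h.2]
  obtain ⟨c, hc, hgrow⟩ := auc_growth Cof hCof N hadd hsmul a b ha hb hab hauc (1 / 2) (by norm_num)
  have hone : ∀ v, v ≠ [] → ∃ n, (1 + c / 2) * N (u v) ≤ N (u (n :: v)) := by
    intro v hv
    have hx : u v ≠ 0 := by
      intro h0
      have := hu1 v hv
      rw [h0, norm_zero] at this
      exact zero_ne_one this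
    obtain ⟨F, hF, hFy⟩ := hgrow (u v) hx
    set η := min (1 / 2) (a * c / (2 * b)) with hη
    have hηpos : 0 < η := lt_min (by norm_num) (by positivity)
    obtain ⟨n, y', hy', hd⟩ := hnear v F hF η hηpos
    refine ⟨n, ?_⟩
    have h1 : 1 / 2 * ‖u v‖ ≤ ‖y'‖ := by
      rw [hu1 v hv]
      have e1 := hstep v n
      have e2 : ‖u (n :: v) - u v‖ ≤ ‖y'‖ + ‖(u (n :: v) - u v) - y'‖ := by
        have : u (n :: v) - u v = y' + ((u (n :: v) - u v) - y') := by abel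
        calc ‖u (n :: v) - u v‖ = ‖y' + ((u (n :: v) - u v) - y')‖ := by rw [← this]
          _ ≤ _ := norm_add_le _ _
      have e3 : η ≤ 1 / 2 := min_le_left _ _
      linarith
    have h2 := hFy y' hy' h1
    have h3 : N (u v + y') ≤ N (u (n :: v)) + N (y' - (u (n :: v) - u v)) := by
      have : u v + y' = u (n :: v) + (y' - (u (n :: v) - u v)) := by abel
      rw [this]; exact hadd _ _
    have h4 : N (y' - (u (n :: v) - u v)) ≤ a * c / 2 := by
      have e1 := (hab (y' - (u (n :: v) - u v))).2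
      have e2 : ‖y' - (u (n :: v) - u v)‖ < η := by rw [norm_sub_rev]; exact hd
      have e3 : η ≤ a * c / (2 * b) := min_le_right _ _
      have e4 : b * ‖y' - (u (n :: v) - u v)‖ ≤ b * (a * c / (2 * b)) :=
        mul_le_mul_of_nonneg_left (e2.le.trans e3) hb.le
      have e5 : b * (a * c / (2 * b)) = a * c / 2 := by field_simp
      linarith
    have h5 : a ≤ N (u v) := by
      have := (hab (u v)).1
      rwa [hu1 v hv, mul_one] at this
    nlinarith
  have hind : ∀ k : ℕ, ∃ v, v ≠ [] ∧ (1 + c / 2) ^ k * a ≤ N (u v) := by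
    intro k
    induction k with
    | zero =>
        refine ⟨[0], by simp, ?_⟩
        have := (hab (u [0])).1
        rw [hu1 [0] (by simp), mul_one] at this
        simpa using this
    | succ k ih =>
        obtain ⟨v, hv, hk⟩ := ih
        obtain ⟨n, hn⟩ := hone v hv
        refine ⟨n :: v, by simp, ?_⟩
        calc (1 + c / 2) ^ (k + 1) * a = (1 + c / 2) * ((1 + c / 2) ^ k * a) := by ring
          _ ≤ (1 + c / 2) * N (u v) := mul_le_mul_of_nonneg_left hk (by positivity)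
          _ ≤ _ := hn
  obtain ⟨k, hk⟩ := pow_unbounded_of_one_lt (b / a) (by linarith : 1 < 1 + c / 2)
  obtain ⟨v, hv, hkv⟩ := hind k
  have h1 : N (u v) ≤ b := by
    have := (hab (u v)).2
    rwa [hu1 v hv, mul_one] at this
  have h2 : b < (1 + c / 2) ^ k * a := by
    rwa [div_lt_iff₀ ha] at hk
  linarith

end Crest.Agent.helper92
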