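import Mathlib
import Crest.Prelude.Def_TreePotentials

/-!
Helper lemmas for S0168 (tree potentials).  Part 1: combinatorics of test functions.
-/

open Crest.AnalysisR Crest.AnalysisR.TreePotential

namespace Crest.Agent.helper92

/-- increments of a function on the tree -/
def incr (H : List ℕ → ℝ) : List ℕ → ℝ
  | [] => H []
  | a :: v => H (a :: v) - H v

lemma pathPotential_incr (H : List ℕ → ℝ) : ∀ s, pathPotential (incr H) s = H s
  | [] => rfl
  | a :: v => by simp [pathPotential, incr, pathPotential_incr H v]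

lemma pathPotential_neg (g : List ℕ → ℝ) : ∀ s, pathPotential (fun r => - g r) s = - pathPotential g s
  | [] => rfl
  | a :: v => by simp [pathPotential, pathPotential_neg g v]; ring

/-- the longest suffix lying in `A` -/
def base (A : Finset (List ℕ)) : List ℕ → List ℕ
  | [] => []
  | a :: v => if a :: v ∈ A then a :: v else base A v

/-- suffix closed sets containing the root -/
def SufClosed (A : Finset (List ℕ)) : Prop :=
  [] ∈ A ∧ ∀ a v, a :: v ∈ A → v ∈ A

lemma base_of_mem {A : Finset (List ℕ)} : ∀ {s : List ℕ}, s ∈ A → base A s = s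
  | [], _ => rfl
  | a :: v, h => by simp [base, h]

lemma base_cons_of_not_mem {A : Finset (List ℕ)} {a : ℕ} {v : List ℕ} (h : a :: v ∉ A) :
    base A (a :: v) = base A v := by simp [base, h]

/-- the potential of the mixed test -/
noncomputable def mixH (α β : ℝ) (A : Finset (List ℕ)) (f g : List ℕ → ℝ) (s : List ℕ) : ℝ :=
  α * pathPotential f (base A s) +
    β * (if 0 ≤ pathPotential f (base A s) then
          min (pathPotential g s - pathPotential g (base A s)) 0
         else max (pathPotential g s - pathPotential g (base A s)) 0)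

/-- the mixed test -/
noncomputable def mix (α β : ℝ) (A : Finset (List ℕ)) (f g : List ℕ → ℝ) : List ℕ → ℝ :=
  incr (mixH α β A f g)

lemma mixH_of_mem {α β : ℝ} {A : Finset (List ℕ)} {f g : List ℕ → ℝ} {s : List ℕ} (h : s ∈ A) :
    mixH α β A f g s = α * pathPotential f s := by
  simp [mixH, base_of_mem h]

lemma mix_of_mem {α β : ℝ} {A : Finset (List ℕ)} (hA : SufClosed A) {f g : List ℕ → ℝ} :
    ∀ {s : List ℕ}, s ∈ A → mix α β A f g s = α * f s
  | [], h => by simp [mix, incr, mixH_of_mem h, pathPotential]
  | a :: v, h => by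
      have hv : v ∈ A := hA.2 a v h
      simp [mix, incr, mixH_of_mem h, mixH_of_mem hv, pathPotential]
      ring

lemma abs_mix_le_of_not_mem {α β : ℝ} (hβ : 0 ≤ β) {A : Finset (List ℕ)} (hA : SufClosed A)
    {f g : List ℕ → ℝ} : ∀ {s : List ℕ}, s ∉ A → |mix α β A f g s| ≤ β * |g s|
  | [], h => absurd hA.1 h
  | a :: v, h => by
      have hb := base_cons_of_not_mem h
      simp only [mix, incr, mixH, hb, pathPotential]
      set Pb := pathPotential g (base A v)
      set P := pathPotential g v
      set x := g (a :: v)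
      split_ifs with h0
      · have : α * pathPotential f (base A v) + β * min (P + x - Pb) 0 -
            (α * pathPotential f (base A v) + β * min (P - Pb) 0)
            = β * (min (P + x - Pb) 0 - min (P - Pb) 0) := by ring
        rw [this, abs_mul, abs_of_nonneg hβ]
        apply mul_le_mul_of_nonneg_left _ hβ
        have := abs_min_sub_min_le_max (P + x - Pb) 0 (P - Pb) 0
        simpa [show P + x - Pb - (P - Pb) = x by ring] using this
      · have : α * pathPotential f (base A v) + β * max (P + x - Pb) 0 -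
            (α * pathPotential f (base A v) + β * max (P - Pb) 0)
            = β * (max (P + x - Pb) 0 - max (P - Pb) 0) := by ring
        rw [this, abs_mul, abs_of_nonneg hβ]
        apply mul_le_mul_of_nonneg_left _ hβ
        have := abs_max_sub_max_le_max (P + x - Pb) 0 (P - Pb) 0
        simpa [show P + x - Pb - (P - Pb) = x by ring] using this

lemma mix_sub_mix_neg {α β : ℝ} {A : Finset (List ℕ)} (hA : SufClosed A)
    {f g : List ℕ → ℝ} : ∀ {s : List ℕ}, s ∉ A →
      mix α β A f g s - mix α β A f (fun r => - g r) s = β * g s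
  | [], h => absurd hA.1 h
  | a :: v, h => by
      have hb := base_cons_of_not_mem h
      simp only [mix, incr, mixH, hb, pathPotential, pathPotential_neg]
      set Pb := pathPotential g (base A v)
      set P := pathPotential g v
      set x := g (a :: v)
      have e1 : -P + -x - -Pb = -(P + x - Pb) := by ring
      have e2 : -P - -Pb = -(P - Pb) := by ring
      have m1 : ∀ z : ℝ, min (-z) 0 = - max z 0 := by
        intro z; rw [← neg_zero, min_neg_neg]; simp
      have m2 : ∀ z : ℝ, max (-z) 0 = - min z 0 := by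
        intro z; rw [← neg_zero, max_neg_neg]; simp
      have m3 : ∀ z : ℝ, min z 0 + max z 0 = z := by
        intro z; rw [min_add_max]; simp
      rw [e1, e2]
      split_ifs with h0
      · rw [m1, m1]
        have := m3 (P + x - Pb)
        have := m3 (P - Pb)
        linear_combination β * (m3 (P + x - Pb)) - β * (m3 (P - Pb))
      · rw [m2, m2]
        linear_combination β * (m3 (P + x - Pb)) - β * (m3 (P - Pb))

lemma abs_mixH_le {α β : ℝ} (hα0 : 0 ≤ α) (hα1 : α ≤ 1) (hβ0 : 0 ≤ β) (hβ1 : β ≤ 1 / 2)
    {A : Finset (List ℕ)} {f g : List ℕ → ℝ} (hf : ∀ s, |pathPotential f s| ≤ 1)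
    (hg : ∀ s, |pathPotential g s| ≤ 1) (s : List ℕ) : |mixH α β A f g s| ≤ 1 := by
  have h1 := abs_le.mp (hf (base A s))
  have h2 := abs_le.mp (hg (base A s))
  have h3 := abs_le.mp (hg s)
  simp only [mixH]
  set F := pathPotential f (base A s)
  set Q := pathPotential g s - pathPotential g (base A s) with hQ
  have hQ1 : -2 ≤ Q := by linarith [h2.2, h3.1]
  have hQ2 : Q ≤ 2 := by linarith [h2.1, h3.2]
  rw [abs_le]
  split_ifs with h0
  · have a1 : min Q 0 ≤ 0 := min_le_right _ _
    have a2 : -2 ≤ min Q 0 := le_min hQ1 (by norm_num)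
    constructor
    · nlinarith [mul_nonneg hα0 h0]
    · nlinarith [mul_nonneg hα0 h0]
  · have h0 := not_le.mp h0
    have a1 : 0 ≤ max Q 0 := le_max_right _ _
    have a2 : max Q 0 ≤ 2 := max_le hQ2 (by norm_num)
    constructor
    · nlinarith
    · nlinarith

lemma mix_sq_le {α β : ℝ} (hβ : 0 ≤ β) {A : Finset (List ℕ)} (hA : SufClosed A)
    {f g : List ℕ → ℝ} (s : List ℕ) :
    mix α β A f g s ^ 2 ≤ α ^ 2 * f s ^ 2 + β ^ 2 * g s ^ 2 := by
  by_cases h : s ∈ A
  · rw [mix_of_mem hA h]
    nlinarith [sq_nonneg (β * g s)]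
  · have := abs_mix_le_of_not_mem (α := α) hβ hA (f := f) (g := g) h
    have h2 : mix α β A f g s ^ 2 ≤ (β * |g s|) ^ 2 := by
      rw [← sq_abs]
      exact pow_le_pow_left₀ (abs_nonneg _) this 2
    rw [mul_pow, sq_abs] at h2
    nlinarith [sq_nonneg (α * f s)]


/-! ### Tests -/

lemma sum_sq_mix_le {ι : Type*} {α β : ℝ} (hβ : 0 ≤ β) (hαβ : α ^ 2 + β ^ 2 ≤ 1)
    {A : Finset (List ℕ)} (hA : SufClosed A) {f g : List ℕ → ℝ} (B : Finset ι) (φ : ι → List ℕ)
    (hf : ∑ i ∈ B, f (φ i) ^ 2 ≤ 1) (hg : ∑ i ∈ B, g (φ i) ^ 2 ≤ 1) :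
    ∑ i ∈ B, mix α β A f g (φ i) ^ 2 ≤ 1 := by
  calc ∑ i ∈ B, mix α β A f g (φ i) ^ 2
      ≤ ∑ i ∈ B, (α ^ 2 * f (φ i) ^ 2 + β ^ 2 * g (φ i) ^ 2) :=
        Finset.sum_le_sum fun i _ => mix_sq_le hβ hA _
    _ = α ^ 2 * ∑ i ∈ B, f (φ i) ^ 2 + β ^ 2 * ∑ i ∈ B, g (φ i) ^ 2 := by
        rw [Finset.sum_add_distrib, Finset.mul_sum, Finset.mul_sum]
    _ ≤ α ^ 2 * 1 + β ^ 2 * 1 := by
        gcongr
    _ ≤ 1 := by linarith

lemma isTest_neg {m : PotentialModel} {g : List ℕ → ℝ} (hg : IsTest m g) :
    IsTest m (fun r => - g r) := by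
  refine ⟨fun s => by rw [pathPotential_neg, abs_neg]; exact hg.1 s, ?_⟩
  have h2 := hg.2
  cases m with
  | rootlessSibling => exact ⟨by simp [h2.1], fun r A => by simpa using h2.2 r A⟩
  | rootedSibling => exact fun r A => by simpa using h2 r A
  | antichain =>
      refine ⟨?_, fun A hA => by simpa using h2.2 A hA⟩
      have : Function.support (fun r => - g r) = Function.support g := by
        ext r; simp
      rw [this]; exact h2.1
  | global => exact fun A => by simpa using h2 A

lemma isTest_mix {m : PotentialModel} {α β : ℝ} (hα0 : 0 ≤ α) (hβ0 : 0 ≤ β) (hβ1 : β ≤ 1 / 2)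
    (hαβ : α ^ 2 + β ^ 2 ≤ 1) {A : Finset (List ℕ)} (hA : SufClosed A) {f g : List ℕ → ℝ}
    (hf : IsTest m f) (hg : IsTest m g) : IsTest m (mix α β A f g) := by
  have hα1 : α ≤ 1 := by nlinarith [sq_nonneg β]
  refine ⟨fun s => ?_, ?_⟩
  · rw [mix, pathPotential_incr]
    exact abs_mixH_le hα0 hα1 hβ0 hβ1 hf.1 hg.1 s
  · have hf2 := hf.2
    have hg2 := hg.2
    cases m with
    | rootlessSibling =>
        refine ⟨by rw [mix_of_mem hA hA.1, hf2.1, mul_zero], fun r B => ?_⟩
        exact sum_sq_mix_le hβ0 hαβ hA B (fun n => n :: r) (hf2.2 r B) (hg2.2 r B)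
    | rootedSibling =>
        exact fun r B => sum_sq_mix_le hβ0 hαβ hA B (fun n => n :: r) (hf2 r B) (hg2 r B)
    | antichain =>
        refine ⟨?_, fun B hB => sum_sq_mix_le hβ0 hαβ hA B id (hf2.2 B hB) (hg2.2 B hB)⟩
        apply Set.Finite.subset (A.finite_toSet.union hg2.1)
        intro s hs
        by_contra hcon
        simp only [Set.mem_union, Finset.mem_coe, Function.mem_support, not_or, not_not] at hcon
        have := abs_mix_le_of_not_mem (α := α) hβ0 hA (f := f) (g := g) hcon.1
        rw [hcon.2] at this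
        simp at this
        exact hs this
    | global =>
        exact fun B => sum_sq_mix_le hβ0 hαβ hA B id (hf2 B) (hg2 B)

/-- sibling square sums are at most one in all four models -/
lemma sibling_sq_le {m : PotentialModel} {f : List ℕ → ℝ} (hf : IsTest m f) (r : List ℕ)
    (B : Finset ℕ) : ∑ n ∈ B, f (n :: r) ^ 2 ≤ 1 := by
  have h2 := hf.2
  have himg : ∑ u ∈ B.image (fun n => n :: r), f u ^ 2 = ∑ n ∈ B, f (n :: r) ^ 2 := by
    rw [Finset.sum_image]
    intro a _ b _ hab
    simpa using hab
  cases m with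
  | rootlessSibling => exact h2.2 r B
  | rootedSibling => exact h2 r B
  | antichain =>
      rw [← himg]
      apply h2.2
      intro u hu v hv huv hsuf
      simp only [Finset.mem_image] at hu hv
      obtain ⟨a, _, rfl⟩ := hu
      obtain ⟨b, _, rfl⟩ := hv
      exact huv (hsuf.eq_of_length (by simp))
  | global =>
      rw [← himg]
      exact h2 _

/-- the delta function at a vertex -/
noncomputable def delta (s : List ℕ) : List ℕ → ℝ := fun r => if r = s then 1 else 0

lemma pathPotential_delta (s : List ℕ) :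
    ∀ r, pathPotential (delta s) r = if s <:+ r then 1 else 0
  | [] => by
      simp only [pathPotential, delta, List.suffix_nil]
      by_cases h : s = [] <;> simp [h, eq_comm]
  | a :: v => by
      simp only [pathPotential, pathPotential_delta s v, delta, List.suffix_cons_iff]
      by_cases h1 : a :: v = s
      · subst h1
        have : ¬ (a :: v <:+ v) := by
          intro h
          have := h.length_le
          simp at this
        simp [this]
      · have h1' : ¬ (s = a :: v) := fun h => h1 h.symm
        simp [h1, h1']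

lemma sum_sq_delta_le (s : List ℕ) (B : Finset (List ℕ)) : ∑ u ∈ B, delta s u ^ 2 ≤ 1 := by
  have : ∀ u, delta s u ^ 2 = if u = s then 1 else 0 := by
    intro u; by_cases h : u = s <;> simp [delta, h]
  simp only [this, Finset.sum_ite_eq']
  split_ifs <;> norm_num

lemma isTest_delta (m : PotentialModel) {s : List ℕ} (hs : s ≠ []) : IsTest m (delta s) := by
  refine ⟨fun r => ?_, ?_⟩
  · rw [pathPotential_delta]; split_ifs <;> simp
  · have himg : ∀ (r : List ℕ) (B : Finset ℕ), ∑ n ∈ B, delta s (n :: r) ^ 2 ≤ 1 := by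
      intro r B
      have : ∑ u ∈ B.image (fun n => n :: r), delta s u ^ 2 = ∑ n ∈ B, delta s (n :: r) ^ 2 := by
        rw [Finset.sum_image]
        intro a _ b _ hab
        simpa using hab
      rw [← this]; exact sum_sq_delta_le s _
    cases m with
    | rootlessSibling => exact ⟨by simp [delta, hs.symm], himg⟩
    | rootedSibling => exact himg
    | antichain =>
        refine ⟨?_, fun B _ => sum_sq_delta_le s B⟩
        apply Set.Finite.subset (Set.finite_singleton s)
        intro r hr
        by_contra hcon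
        exact hr (by simp [delta, show r ≠ s from hcon])
    | global => exact sum_sq_delta_le s

lemma isTest_zero (m : PotentialModel) : IsTest m (fun _ => 0) := by
  have hp : ∀ s, pathPotential (fun _ => (0:ℝ)) s = 0 := by
    intro s; induction s with
    | nil => rfl
    | cons a v ih => simp [pathPotential, ih]
  refine ⟨fun r => by simp [hp], ?_⟩
  cases m with
  | rootlessSibling => exact ⟨rfl, fun r A => by simp⟩
  | rootedSibling => exact fun r A => by simp
  | antichain => exact ⟨by simp, fun A _ => by simp⟩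
  | global => exact fun A => by simp

end Crest.Agent.helper92
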