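import Mathlib
import Crest.Prelude.Def_TreePotentials
import Crest.Agent.Lib.helper92_TreePot

/-!
Helper lemmas for S0168 (tree potentials).  Part 2: the model space.
-/

open Crest.AnalysisR Crest.AnalysisR.TreePotential

namespace Crest.Agent.helper92

variable {m : PotentialModel}

instance : Nonempty (PotentialTest m) := ⟨⟨fun _ => 0, isTest_zero m⟩⟩

/-- evaluation at a test on the ambient space -/
noncomputable def evL (f : PotentialTest m) : lp (fun _ : PotentialTest m => ℝ) ⊤ →L[ℝ] ℝ :=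
  LinearMap.mkContinuous
    { toFun := fun x => x f
      map_add' := fun x y => by simp
      map_smul' := fun c x => by simp } 1
    (fun x => by
      have := lp.norm_apply_le_norm ENNReal.top_ne_zero x f
      rw [one_mul]
      exact this)

/-- evaluation at a test on the model space -/
noncomputable def evX (f : PotentialTest m) : modelSpace m →L[ℝ] ℝ :=
  (evL f).comp (modelSpace m).subtypeL

lemma evX_apply (f : PotentialTest m) (x : modelSpace m) :
    evX f x = (x : lp (fun _ : PotentialTest m => ℝ) ⊤) f := rfl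

/-- coordinate vectors as elements of the model space -/
noncomputable def eX (m : PotentialModel) (s : List ℕ) : modelSpace m :=
  ⟨coordVector m s, subset_closure (Submodule.subset_span ⟨s, rfl⟩)⟩

@[simp] lemma evX_eX (f : PotentialTest m) (s : List ℕ) : evX f (eX m s) = f.1 s := rfl

lemma abs_evX_le (f : PotentialTest m) (x : modelSpace m) : |evX f x| ≤ ‖x‖ := by
  have := lp.norm_apply_le_norm ENNReal.top_ne_zero (x : lp (fun _ : PotentialTest m => ℝ) ⊤) f
  simpa [evX_apply] using this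

lemma evX_le (f : PotentialTest m) (x : modelSpace m) : evX f x ≤ ‖x‖ :=
  (le_abs_self _).trans (abs_evX_le f x)

/-- the negative of a test -/
def negT (f : PotentialTest m) : PotentialTest m := ⟨fun r => - f.1 r, isTest_neg f.2⟩

lemma norm_le_of_forall_evX {x : modelSpace m} {C : ℝ} (hC : 0 ≤ C)
    (h : ∀ f : PotentialTest m, |evX f x| ≤ C) : ‖x‖ ≤ C := by
  have := lp.norm_le_of_forall_le (f := (x : lp (fun _ : PotentialTest m => ℝ) ⊤)) hC
    (fun f => by simpa [evX_apply] using h f)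
  simpa using this

lemma dense_span_eX : Dense (Submodule.span ℝ (Set.range (eX m)) : Set (modelSpace m)) := by
  intro x
  rw [Metric.mem_closure_iff]
  intro ε hε
  have hx : (x : lp (fun _ : PotentialTest m => ℝ) ⊤) ∈
      closure (Submodule.span ℝ (Set.range (coordVector m)) : Set _) := x.2
  rw [Metric.mem_closure_iff] at hx
  obtain ⟨y, hy, hxy⟩ := hx ε hε
  have hmap : Submodule.map (modelSpace m).subtype (Submodule.span ℝ (Set.range (eX m)))
      = Submodule.span ℝ (Set.range (coordVector m)) := by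
    rw [Submodule.map_span, ← Set.range_comp]
    rfl
  rw [SetLike.mem_coe, ← hmap] at hy
  obtain ⟨y', hy', rfl⟩ := hy
  exact ⟨y', hy', hxy⟩

lemma clm_ext_model {φ ψ : modelSpace m →L[ℝ] ℝ} (h : ∀ s, φ (eX m s) = ψ (eX m s)) : φ = ψ :=
  ContinuousLinearMap.ext_on dense_span_eX (by rintro _ ⟨s, rfl⟩; exact h s)

lemma evX_negT (f : PotentialTest m) (x : modelSpace m) : evX (negT f) x = - evX f x := by
  have : evX (negT f) = - evX f := clm_ext_model (fun s => by
    rw [neg_apply, evX_eX, evX_eX]; rfl)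
  rw [this]; rfl

lemma exists_evX_gt (x : modelSpace m) {ε : ℝ} (hε : 0 < ε) :
    ∃ f : PotentialTest m, ‖x‖ - ε < evX f x := by
  by_contra hcon
  push Not at hcon
  have h1 : ‖x‖ ≤ max (‖x‖ - ε) 0 := by
    apply norm_le_of_forall_evX (le_max_right _ _)
    intro f
    rw [abs_le]
    constructor
    · have := hcon (negT f)
      rw [evX_negT] at this
      have h2 := le_max_left (‖x‖ - ε) 0
      linarith
    · exact (hcon f).trans (le_max_left _ _)
  rcases max_cases (‖x‖ - ε) 0 with ⟨h2, _⟩ | ⟨h2, h3⟩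
  · rw [h2] at h1; linarith
  · rw [h2] at h1
    have := norm_nonneg x
    have hx0 : ‖x‖ = 0 := le_antisymm h1 this
    have := hcon ⟨fun _ => 0, isTest_zero m⟩
    have h4 := abs_evX_le (⟨fun _ => 0, isTest_zero m⟩ : PotentialTest m) x
    rw [hx0] at h4 this
    have h5 := abs_nonneg (evX (⟨fun _ => 0, isTest_zero m⟩ : PotentialTest m) x)
    have h6 : evX (⟨fun _ => 0, isTest_zero m⟩ : PotentialTest m) x = 0 :=
      abs_eq_zero.mp (le_antisymm h4 h5)
    rw [h6] at this
    linarith


/-! ### delta tests -/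

lemma isTest_delta_nil {m : PotentialModel} (hm : m ≠ .rootlessSibling) : IsTest m (delta []) := by
  refine ⟨fun r => ?_, ?_⟩
  · rw [pathPotential_delta]; simp
  · have himg : ∀ (r : List ℕ) (B : Finset ℕ), ∑ n ∈ B, delta [] (n :: r) ^ 2 ≤ 1 := by
      intro r B
      simp [delta]
    cases m with
    | rootlessSibling => exact absurd rfl hm
    | rootedSibling => exact himg
    | antichain =>
        refine ⟨?_, fun B _ => sum_sq_delta_le [] B⟩
        apply Set.Finite.subset (Set.finite_singleton [])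
        intro r hr
        by_contra hcon
        exact hr (by simp [delta, show r ≠ [] from hcon])
    | global => exact sum_sq_delta_le []

open Classical in
/-- the delta function at `s`, replaced by zero when it is not a test
(root of the rootless model) -/
noncomputable def dfun (m : PotentialModel) (s : List ℕ) : List ℕ → ℝ :=
  if s = [] ∧ m = .rootlessSibling then fun _ => 0 else delta s

lemma isTest_dfun (m : PotentialModel) (s : List ℕ) : IsTest m (dfun m s) := by
  unfold dfun
  split_ifs with h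
  · exact isTest_zero m
  · by_cases hs : s = []
    · subst hs
      exact isTest_delta_nil (fun hm => h ⟨rfl, hm⟩)
    · exact isTest_delta m hs

/-- the delta test -/
noncomputable def dtest (m : PotentialModel) (s : List ℕ) : PotentialTest m :=
  ⟨dfun m s, isTest_dfun m s⟩

lemma dtest_val (m : PotentialModel) (s : List ℕ) : (dtest m s).1 = dfun m s := rfl

lemma dtest_val_of_ne (m : PotentialModel) {s : List ℕ} (h : s ≠ []) : (dtest m s).1 = delta s := by
  rw [dtest_val]; unfold dfun; rw [if_neg (fun h' => h h'.1)]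

lemma dtest_val_nil_of_ne {m : PotentialModel} (hm : m ≠ .rootlessSibling) :
    (dtest m []).1 = delta [] := by
  rw [dtest_val]; unfold dfun; rw [if_neg (fun h' => hm h'.2)]

lemma dtest_val_nil_rootless : (dtest .rootlessSibling []).1 = fun _ => 0 := by
  rw [dtest_val]; unfold dfun; rw [if_pos ⟨rfl, rfl⟩]

lemma dtest_mul {g : List ℕ → ℝ} (hg : IsTest m g) (s r : List ℕ) :
    g s * (dtest m s).1 r = if r = s then g s else 0 := by
  by_cases h1 : s ≠ []
  · rw [dtest_val_of_ne m h1]
    by_cases h2 : r = s <;> simp [delta, h2]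
  · have h1' : s = [] := not_not.mp h1
    subst h1'
    by_cases h3 : m ≠ .rootlessSibling
    · rw [dtest_val_nil_of_ne h3]
      by_cases h2 : r = [] <;> simp [delta, h2]
    · have h3' : m = .rootlessSibling := not_not.mp h3
      subst h3'
      rw [dtest_val_nil_rootless, hg.2.1]
      simp

/-! ### the key inequality -/

section key

variable {α β : ℝ} {A : Finset (List ℕ)}

/-- mixed test as an element of `PotentialTest` -/
noncomputable def mixT (hα0 : 0 ≤ α) (hβ0 : 0 ≤ β) (hβ1 : β ≤ 1 / 2) (hαβ : α ^ 2 + β ^ 2 ≤ 1)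
    (hA : SufClosed A) (f g : PotentialTest m) : PotentialTest m :=
  ⟨mix α β A f.1 g.1, isTest_mix hα0 hβ0 hβ1 hαβ hA f.2 g.2⟩

lemma evX_mixT_of_mem_span (hα0 : 0 ≤ α) (hβ0 : 0 ≤ β) (hβ1 : β ≤ 1 / 2)
    (hαβ : α ^ 2 + β ^ 2 ≤ 1) (hA : SufClosed A) (f g : PotentialTest m) {x : modelSpace m}
    (hx : x ∈ Submodule.span ℝ (eX m '' (A : Set (List ℕ)))) :
    evX (mixT hα0 hβ0 hβ1 hαβ hA f g) x = α * evX f x := by
  induction hx using Submodule.span_induction with
  | mem x h =>
      obtain ⟨s, hs, rfl⟩ := h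
      simp only [evX_eX, mixT]
      exact mix_of_mem hA hs
  | zero => simp
  | add x y _ _ hx hy => rw [map_add, map_add, hx, hy]; ring
  | smul c x _ hx => rw [map_smul, map_smul, hx]; simp only [smul_eq_mul]; ring

lemma evX_mixT_sub (hα0 : 0 ≤ α) (hβ0 : 0 ≤ β) (hβ1 : β ≤ 1 / 2)
    (hαβ : α ^ 2 + β ^ 2 ≤ 1) (hA : SufClosed A) (f g : PotentialTest m) (y : modelSpace m) :
    evX (mixT hα0 hβ0 hβ1 hαβ hA f g) y - evX (mixT hα0 hβ0 hβ1 hαβ hA f (negT g)) y
      = β * evX g y - β * ∑ s ∈ A, g.1 s * evX (dtest m s) y := by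
  have : evX (mixT hα0 hβ0 hβ1 hαβ hA f g) - evX (mixT hα0 hβ0 hβ1 hαβ hA f (negT g))
      = β • evX g - β • ∑ s ∈ A, g.1 s • evX (dtest m s) := by
    apply clm_ext_model
    intro r
    simp only [sub_apply, smul_apply, sum_apply, evX_eX, smul_eq_mul, dtest_mul g.2]
    change mix α β A f.1 g.1 r - mix α β A f.1 (fun r => - g.1 r) r = _
    by_cases hr : r ∈ A
    · rw [mix_of_mem hA hr, mix_of_mem hA hr]
      simp [hr]
    · rw [mix_sub_mix_neg hA hr]
      simp [hr]
  have h2 := congrArg (fun φ => φ y) this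
  simpa [sub_apply, smul_apply, sum_apply] using h2

lemma key_ineq (hα0 : 0 ≤ α) (hβ0 : 0 ≤ β) (hβ1 : β ≤ 1 / 2)
    (hαβ : α ^ 2 + β ^ 2 ≤ 1) (hA : SufClosed A) (f g : PotentialTest m) {x y : modelSpace m}
    (hx : x ∈ Submodule.span ℝ (eX m '' (A : Set (List ℕ))))
    (hy : ∀ s ∈ A, evX (dtest m s) y = 0) (t : ℝ) :
    2 * α * evX f x + t * β * evX g y ≤ ‖x + t • y‖ + ‖x - t • y‖ := by
  have h1 := evX_le (mixT hα0 hβ0 hβ1 hαβ hA f g) (x + t • y)
  have h2 := evX_le (mixT hα0 hβ0 hβ1 hαβ hA f (negT g)) (x - t • y)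
  rw [map_add, map_smul, evX_mixT_of_mem_span hα0 hβ0 hβ1 hαβ hA f g hx] at h1
  rw [map_sub, map_smul, evX_mixT_of_mem_span hα0 hβ0 hβ1 hαβ hA f (negT g) hx] at h2
  have h3 := evX_mixT_sub hα0 hβ0 hβ1 hαβ hA f g y
  have h4 : ∑ s ∈ A, g.1 s * evX (dtest m s) y = 0 :=
    Finset.sum_eq_zero fun s hs => by rw [hy s hs, mul_zero]
  rw [h4, mul_zero, sub_zero] at h3
  simp only [smul_eq_mul] at h1 h2
  have : 2 * α * evX f x + t * β * evX g y =
      (α * evX f x + t * evX (mixT hα0 hβ0 hβ1 hαβ hA f g) y) +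
      (α * evX f x - t * evX (mixT hα0 hβ0 hβ1 hαβ hA f (negT g)) y) := by
    linear_combination (-t) * h3
  linarith

lemma key_ineq_norm (hα0 : 0 ≤ α) (hβ0 : 0 ≤ β) (hβ1 : β ≤ 1 / 2)
    (hαβ : α ^ 2 + β ^ 2 ≤ 1) (hA : SufClosed A) {x y : modelSpace m}
    (hx : x ∈ Submodule.span ℝ (eX m '' (A : Set (List ℕ))))
    (hy : ∀ s ∈ A, evX (dtest m s) y = 0) {t : ℝ} (ht : 0 ≤ t) :
    2 * α * ‖x‖ + t * β * ‖y‖ ≤ ‖x + t • y‖ + ‖x - t • y‖ := by
  apply le_of_forall_pos_le_add
  intro ε hε
  have hK : 0 < 2 * α + t * β + 1 := by positivity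
  obtain ⟨f, hf⟩ := exists_evX_gt x (div_pos hε hK)
  obtain ⟨g, hg⟩ := exists_evX_gt y (div_pos hε hK)
  have h := key_ineq hα0 hβ0 hβ1 hαβ hA f g hx hy t
  set δ := ε / (2 * α + t * β + 1) with hδ
  have hδ0 : 0 < δ := div_pos hε hK
  have e1 : (2 * α + t * β + 1) * δ = ε := by rw [hδ]; field_simp
  have a1 : 2 * α * (‖x‖ - δ) ≤ 2 * α * evX f x :=
    mul_le_mul_of_nonneg_left hf.le (by positivity)
  have a2 : t * β * (‖y‖ - δ) ≤ t * β * evX g y :=
    mul_le_mul_of_nonneg_left hg.le (by positivity)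
  nlinarith

end key

/-! ### approximation by finitely supported vectors -/

lemma sufClosed_union {A B : Finset (List ℕ)} (hA : SufClosed A) (hB : SufClosed B) :
    SufClosed (A ∪ B) := by
  refine ⟨Finset.mem_union_left _ hA.1, fun a v h => ?_⟩
  rcases Finset.mem_union.mp h with h | h
  · exact Finset.mem_union_left _ (hA.2 a v h)
  · exact Finset.mem_union_right _ (hB.2 a v h)

lemma sufClosed_tails (s : List ℕ) : SufClosed s.tails.toFinset := by
  refine ⟨by simp, fun a v h => ?_⟩
  simp only [List.mem_toFinset, List.mem_tails] at h ⊢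
  exact (List.suffix_cons a v).trans h

lemma exists_sufClosed_of_mem_span {x : modelSpace m}
    (hx : x ∈ Submodule.span ℝ (Set.range (eX m))) :
    ∃ A : Finset (List ℕ), SufClosed A ∧ x ∈ Submodule.span ℝ (eX m '' (A : Set (List ℕ))) := by
  induction hx using Submodule.span_induction with
  | mem x h =>
      obtain ⟨s, rfl⟩ := h
      exact ⟨s.tails.toFinset, sufClosed_tails s,
        Submodule.subset_span ⟨s, by simp, rfl⟩⟩
  | zero => exact ⟨[].tails.toFinset, sufClosed_tails [], Submodule.zero_mem _⟩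
  | add x y _ _ hx hy =>
      obtain ⟨A, hA, hxA⟩ := hx
      obtain ⟨B, hB, hyB⟩ := hy
      refine ⟨A ∪ B, sufClosed_union hA hB, Submodule.add_mem _ ?_ ?_⟩
      · exact Submodule.span_mono (Set.image_mono (by simp)) hxA
      · exact Submodule.span_mono (Set.image_mono (by simp)) hyB
  | smul c x _ hx =>
      obtain ⟨A, hA, hxA⟩ := hx
      exact ⟨A, hA, Submodule.smul_mem _ c hxA⟩

lemma exists_approx (x : modelSpace m) {ε : ℝ} (hε : 0 < ε) :
    ∃ (A : Finset (List ℕ)) (x' : modelSpace m), SufClosed A ∧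
      x' ∈ Submodule.span ℝ (eX m '' (A : Set (List ℕ))) ∧ ‖x - x'‖ < ε := by
  have := dense_span_eX (m := m) x
  rw [Metric.mem_closure_iff] at this
  obtain ⟨x', hx', hd⟩ := this ε hε
  obtain ⟨A, hA, hxA⟩ := exists_sufClosed_of_mem_span hx'
  exact ⟨A, x', hA, hxA, by rwa [← dist_eq_norm]⟩

end Crest.Agent.helper92
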