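import Mathlib
import Crest.Prelude.Def_TreePotentials
import Crest.Agent.Lib.helper92_TreeSpace
import Crest.Agent.Lib.helper92_Auc

/-!
Helper lemmas for S0168 (tree potentials).  Part 4: the branch sums, no AUC renorming,
separability and infinite dimension.
-/

open Crest.AnalysisR Crest.AnalysisR.TreePotential

namespace Crest.Agent.helper92

variable {m : PotentialModel}

/-- branch sums -/
noncomputable def uX (m : PotentialModel) : List ℕ → modelSpace m
  | [] => eX m []
  | a :: v => uX m v + eX m (a :: v)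

lemma evX_uX (f : PotentialTest m) : ∀ v, evX f (uX m v) = pathPotential f.1 v
  | [] => rfl
  | a :: v => by
      simp only [uX, map_add, evX_uX f v, evX_eX, pathPotential]

lemma norm_uX_le (v : List ℕ) : ‖uX m v‖ ≤ 1 :=
  norm_le_of_forall_evX zero_le_one (fun f => by rw [evX_uX]; exact f.2.1 v)

lemma norm_uX {v : List ℕ} (hv : v ≠ []) : ‖uX m v‖ = 1 := by
  apply le_antisymm (norm_uX_le v)
  have h := evX_le (⟨delta v, isTest_delta m hv⟩ : PotentialTest m) (uX m v)
  rw [evX_uX, pathPotential_delta] at h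
  simpa using h

lemma one_le_norm_eX {s : List ℕ} (hs : s ≠ []) : 1 ≤ ‖eX m s‖ := by
  have h := evX_le (⟨delta s, isTest_delta m hs⟩ : PotentialTest m) (eX m s)
  rw [evX_eX] at h
  simpa [delta] using h

lemma uX_step (v : List ℕ) (n : ℕ) : uX m (n :: v) - uX m v = eX m (n :: v) := by
  simp [uX]

lemma norm_sum_eX_le (v : List ℕ) (B : Finset ℕ) :
    ‖∑ n ∈ B, eX m (n :: v)‖ ≤ 1 * Real.sqrt B.card := by
  rw [one_mul]
  apply norm_le_of_forall_evX (Real.sqrt_nonneg _)
  intro f
  rw [map_sum]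
  simp only [evX_eX]
  apply Real.abs_le_sqrt
  have h1 := sibling_sq_le f.2 v B
  have h2 := Finset.sum_mul_sq_le_sq_mul_sq B (fun _ => (1 : ℝ)) (fun n => f.1 (n :: v))
  simp only [one_mul, one_pow, Finset.sum_const, nsmul_eq_mul, mul_one] at h2
  calc (∑ n ∈ B, f.1 (n :: v)) ^ 2 ≤ (B.card : ℝ) * ∑ n ∈ B, f.1 (n :: v) ^ 2 := h2
    _ ≤ (B.card : ℝ) * 1 := mul_le_mul_of_nonneg_left h1 (Nat.cast_nonneg _)
    _ = B.card := mul_one _

theorem no_auc_plain (m : PotentialModel) (N : modelSpace m → ℝ)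
    (hadd : ∀ x y, N (x + y) ≤ N x + N y) (hsmul : ∀ (a : ℝ) x, N (a • x) = |a| * N x)
    (a b : ℝ) (ha : 0 < a) (hab : ∀ x, a * ‖x‖ ≤ N x ∧ N x ≤ b * ‖x‖)
    (hauc : ∀ t : ℝ, 0 < t → ∃ c : ℝ, 0 < c ∧ ∀ x, N x = 1 → ∃ F : Set (modelSpace m),
      (modelBanach m).IsCof F ∧ ∀ y ∈ F, N y = 1 → c ≤ N (x + t • y) - 1) : False := by
  refine no_auc_of_tree (X := modelSpace m) (fun F => (modelBanach m).IsCof F) ?_ (uX m)
    (fun v hv => norm_uX hv) ?_ ?_ N hadd hsmul a b ha hab hauc
  · rintro F ⟨S, hS, -, -⟩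
    exact ⟨S, hS⟩
  · intro v n
    rw [uX_step]
    exact one_le_norm_eX (by simp)
  · rintro v F ⟨S, rfl, hcl, hfd⟩ η hη
    obtain ⟨n, y', hy', h⟩ := exists_near_of_sqrt_bound (X := modelSpace m) S hcl hfd
      (fun n => eX m (n :: v)) 1 (norm_sum_eX_le v) hη
    exact ⟨n, y', hy', by rw [uX_step]; exact h⟩

theorem no_auc (m : PotentialModel) (N : (modelBanach m).X → ℝ)
    (hN : (modelBanach m).IsEquivNorm N) : ¬ (modelBanach m).IsAUC N := by
  intro hauc
  obtain ⟨hadd, hsmul, a, b, ha, hab⟩ := hN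
  exact no_auc_plain m N hadd hsmul a b ha hab hauc

lemma separable_model (m : PotentialModel) : TopologicalSpace.SeparableSpace (modelSpace m) := by
  have h1 : TopologicalSpace.IsSeparable
      (closure (Submodule.span ℝ (Set.range (eX m)) : Set (modelSpace m))) :=
    ((Set.countable_range (eX m)).isSeparable.span (R := ℝ)).closure
  rw [dense_span_eX.closure_eq] at h1
  exact TopologicalSpace.isSeparable_univ_iff.mp h1

lemma not_finiteDimensional_model (m : PotentialModel) : ¬ FiniteDimensional ℝ (modelSpace m) := by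
  intro hfd
  obtain ⟨n, y', hy', h⟩ := exists_near_of_sqrt_bound (X := modelSpace m) ⊥
    (by simp) inferInstance
    (fun n => eX m (n :: [])) 1 (norm_sum_eX_le []) (η := 1 / 2) (by norm_num)
  rw [Submodule.mem_bot] at hy'
  subst hy'
  rw [sub_zero] at h
  have := one_le_norm_eX (m := m) (s := [n]) (by simp)
  linarith

theorem sep_infdim (m : PotentialModel) : (modelBanach m).IsSeparableInfiniteDim :=
  ⟨separable_model m, not_finiteDimensional_model m⟩

end Crest.Agent.helper92
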