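import Mathlib
import Crest.Prelude.Def_TreePotentials
import Crest.Agent.Lib.helper92_TreeSpace

/-!
Helper lemmas for S0168 (tree potentials).  Part 3: the midpoint modulus.
-/

open Crest.AnalysisR Crest.AnalysisR.TreePotential

namespace Crest.Agent.helper92

variable {m : PotentialModel}

/-- the common kernel of the delta tests on `A` -/
noncomputable def kerA (m : PotentialModel) (A : Finset (List ℕ)) : Submodule ℝ (modelSpace m) :=
  LinearMap.ker (ContinuousLinearMap.pi (fun s : A => evX (dtest m s.1))).toLinearMap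

lemma mem_kerA {A : Finset (List ℕ)} {y : modelSpace m} :
    y ∈ kerA m A ↔ ∀ s ∈ A, evX (dtest m s) y = 0 := by
  unfold kerA
  rw [LinearMap.mem_ker]
  constructor
  · intro h s hs
    exact congrFun h ⟨s, hs⟩
  · intro h
    funext s
    exact h s.1 s.2

lemma isClosed_kerA (A : Finset (List ℕ)) : IsClosed (kerA m A : Set (modelSpace m)) :=
  ContinuousLinearMap.isClosed_ker _

lemma finiteDimensional_quot_kerA (A : Finset (List ℕ)) :
    FiniteDimensional ℝ (modelSpace m ⧸ kerA m A) :=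
  (LinearMap.quotKerEquivRange
    (ContinuousLinearMap.pi (fun s : A => evX (dtest m s.1))).toLinearMap).symm.finiteDimensional

lemma isCof_kerA (A : Finset (List ℕ)) :
    (modelBanach m).IsCof (kerA m A : Set (modelSpace m)) :=
  ⟨kerA m A, rfl, isClosed_kerA A, finiteDimensional_quot_kerA A⟩

theorem midpoint_plain (m : PotentialModel) (t : ℝ) (ht0 : 0 < t) (ht1 : t < 1) :
    ∀ x : modelSpace m, ‖x‖ = 1 → ∀ η : ℝ, 0 < η → ∃ F : Set (modelSpace m),
      (modelBanach m).IsCof F ∧ ∀ y ∈ F, ‖y‖ = 1 →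
        Real.sqrt (1 + t ^ 2 / 4) - 1 - η ≤ (‖x + t • y‖ + ‖x - t • y‖) / 2 - 1 := by
  intro x hx η hη
  obtain ⟨A, x', hA, hx', hd⟩ := exists_approx (m := m) x (half_pos hη)
  refine ⟨(kerA m A : Set (modelSpace m)), isCof_kerA A, ?_⟩
  intro y hy hy1
  set R := Real.sqrt (1 + t ^ 2 / 4) with hR
  have hRpos : 0 < R := Real.sqrt_pos.mpr (by positivity)
  have hRsq : R ^ 2 = 1 + t ^ 2 / 4 := Real.sq_sqrt (by positivity)
  have hR1 : 1 ≤ R := by nlinarith
  have hα0 : 0 ≤ 1 / R := by positivity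
  have hβ0 : 0 ≤ (t / 2) / R := by positivity
  have hβ1 : (t / 2) / R ≤ 1 / 2 := by
    rw [div_le_iff₀ hRpos]; nlinarith
  have hαβ : (1 / R) ^ 2 + ((t / 2) / R) ^ 2 ≤ 1 := by
    have : (1 / R) ^ 2 + ((t / 2) / R) ^ 2 = (1 + t ^ 2 / 4) / R ^ 2 := by
      field_simp; ring
    rw [this, hRsq, div_self (by positivity)]
  have key := key_ineq_norm hα0 hβ0 hβ1 hαβ hA hx' (mem_kerA.mp hy) ht0.le
  rw [hy1, mul_one] at key
  have hx'n : 1 - η / 2 ≤ ‖x'‖ := by
    have := norm_sub_norm_le x x'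
    rw [hx] at this
    linarith
  have e1 : ‖x' + t • y‖ ≤ ‖x + t • y‖ + η / 2 := by
    have : x' + t • y = (x + t • y) - (x - x') := by abel
    rw [this]
    exact (norm_sub_le _ _).trans (by linarith)
  have e2 : ‖x' - t • y‖ ≤ ‖x - t • y‖ + η / 2 := by
    have : x' - t • y = (x - t • y) - (x - x') := by abel
    rw [this]
    exact (norm_sub_le _ _).trans (by linarith)
  have e3 : 2 * (1 / R) * (1 - η / 2) ≤ 2 * (1 / R) * ‖x'‖ :=
    mul_le_mul_of_nonneg_left hx'n (by positivity)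
  have e4 : 2 * (1 / R) + t * ((t / 2) / R) = 2 * R := by
    field_simp
    nlinarith
  have e5 : 1 / R ≤ 1 := by
    rw [div_le_one hRpos]; exact hR1
  nlinarith

theorem midpoint_modulus (m : PotentialModel) (t : ℝ) (ht0 : 0 < t) (ht1 : t < 1) :
    (modelBanach m).MidpointModulusGE (modelBanach m).norm t (Real.sqrt (1 + t ^ 2 / 4) - 1) :=
  midpoint_plain m t ht0 ht1

end Crest.Agent.helper92
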