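import Mathlib
import Crest.Prelude.Def_Diamond

/-!
# Diamond graphs: distance facts and the distortion lower bound (package P4a of row 125)
-/

set_option autoImplicit false
open Crest Crest.AnalysisR

namespace Crest.Agent.helper95

/-! ## Graph part -/

/-- `g` changes by at most one along every edge of `D k`. -/
def EdgeLip (k : ℕ) (g : DiamondVertex k → ℝ) : Prop :=
  ∀ e : DiamondEdge k, |g (diamondTgt k e) - g (diamondSrc k e)| ≤ 1

/-- Certificate for `c ≤ dist u v`. -/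
def LipLower (k : ℕ) (u v : DiamondVertex k) (c : ℝ) : Prop :=
  ∃ g : DiamondVertex k → ℝ, EdgeLip k g ∧ c ≤ g v - g u

lemma src_ne_tgt : ∀ (k : ℕ) (e : DiamondEdge k), diamondSrc k e ≠ diamondTgt k e
  | 0, _ => by
    show (false : Bool) ≠ true
    decide
  | k + 1, (e, i, b) => by
    cases b
    · show (Sum.inl (diamondSrc k e) : DiamondVertex k ⊕ (DiamondEdge k × ℕ)) ≠ Sum.inr (e, i)
      exact Sum.inl_ne_inr
    · show (Sum.inr (e, i) : DiamondVertex k ⊕ (DiamondEdge k × ℕ)) ≠ Sum.inl (diamondTgt k e)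
      exact Sum.inr_ne_inl

lemma adj_src_tgt (k : ℕ) (e : DiamondEdge k) :
    (diamondGraph k).Adj (diamondSrc k e) (diamondTgt k e) := by
  rw [diamondGraph, SimpleGraph.fromRel_adj]
  exact ⟨src_ne_tgt k e, Or.inl ⟨e, rfl, rfl⟩⟩

lemma EdgeLip.adj {k : ℕ} {g : DiamondVertex k → ℝ} (hg : EdgeLip k g) {u v : DiamondVertex k}
    (h : (diamondGraph k).Adj u v) : |g v - g u| ≤ 1 := by
  rw [diamondGraph, SimpleGraph.fromRel_adj] at h
  rcases h with ⟨_, ⟨e, rfl, rfl⟩ | ⟨e, rfl, rfl⟩⟩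
  · exact hg e
  · rw [abs_sub_comm]; exact hg e

lemma EdgeLip.walk {k : ℕ} {g : DiamondVertex k → ℝ} (hg : EdgeLip k g) {u v : DiamondVertex k}
    (p : (diamondGraph k).Walk u v) : |g v - g u| ≤ p.length := by
  induction p with
  | nil => simp
  | @cons a b c h p ih =>
    have h1 := hg.adj h
    have : g c - g a = (g c - g b) + (g b - g a) := by ring
    rw [this, SimpleGraph.Walk.length_cons]
    push_cast
    exact (abs_add_le _ _).trans (by linarith)

lemma reach_inl {k : ℕ} {u v : DiamondVertex k} (h : (diamondGraph k).Reachable u v) :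
    (diamondGraph (k+1)).Reachable (Sum.inl u : DiamondVertex (k+1)) (Sum.inl v) := by
  obtain ⟨p⟩ := h
  induction p with
  | nil => exact SimpleGraph.Reachable.refl _
  | @cons a b c h p ih =>
    refine SimpleGraph.Reachable.trans ?_ ih
    rw [diamondGraph, SimpleGraph.fromRel_adj] at h
    rcases h with ⟨_, ⟨e, rfl, rfl⟩ | ⟨e, rfl, rfl⟩⟩
    · have h1 := adj_src_tgt (k+1) (e, 0, false)
      have h2 := adj_src_tgt (k+1) (e, 0, true)
      exact h1.reachable.trans h2.reachable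
    · have h1 := adj_src_tgt (k+1) (e, 0, false)
      have h2 := adj_src_tgt (k+1) (e, 0, true)
      exact (h1.reachable.trans h2.reachable).symm

lemma diamond_preconnected : ∀ k : ℕ, (diamondGraph k).Preconnected
  | 0 => by
    have h := (adj_src_tgt 0 ()).reachable
    intro u v
    cases u <;> cases v
    · exact SimpleGraph.Reachable.refl _
    · exact h
    · exact h.symm
    · exact SimpleGraph.Reachable.refl _
  | k + 1 => by
    have ih := diamond_preconnected k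
    have key : ∀ u : DiamondVertex (k+1), ∃ u' : DiamondVertex k,
        (diamondGraph (k+1)).Reachable u (Sum.inl u' : DiamondVertex (k+1)) := by
      intro u
      rcases u with u | ⟨e, i⟩
      · exact ⟨u, SimpleGraph.Reachable.refl _⟩
      · exact ⟨diamondTgt k e, (adj_src_tgt (k+1) (e, i, true)).reachable⟩
    intro u v
    obtain ⟨u', hu⟩ := key u
    obtain ⟨v', hv⟩ := key v
    exact hu.trans ((reach_inl (ih u' v')).trans hv.symm)

lemma LipLower.le_dist {k : ℕ} {u v : DiamondVertex k} {c : ℝ} (h : LipLower k u v c) :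
    c ≤ (diamondDist k u v : ℝ) := by
  obtain ⟨g, hg, hc⟩ := h
  obtain ⟨p, hp⟩ := (diamond_preconnected k u v).exists_walk_length_eq_dist
  have := hg.walk p
  rw [hp] at this
  exact hc.trans ((le_abs_self _).trans this)

lemma dist_src_tgt (k : ℕ) (e : DiamondEdge k) :
    diamondDist k (diamondSrc k e) (diamondTgt k e) = 1 := by
  rw [diamondDist, SimpleGraph.dist_eq_one_iff_adj]
  exact adj_src_tgt k e

lemma LipLower.inl {k : ℕ} {u v : DiamondVertex k} {c : ℝ} (h : LipLower k u v c) :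
    LipLower (k+1) (Sum.inl u) (Sum.inl v) (2 * c) := by
  obtain ⟨g, hg, hc⟩ := h
  refine ⟨fun w => match w with
    | Sum.inl w => 2 * g w
    | Sum.inr (e, _) => g (diamondSrc k e) + g (diamondTgt k e), ?_, ?_⟩
  · rintro ⟨e, i, b⟩
    have := hg e
    cases b
    · show |(g (diamondSrc k e) + g (diamondTgt k e)) - 2 * g (diamondSrc k e)| ≤ 1
      convert this using 2
      ring
    · show |2 * g (diamondTgt k e) - (g (diamondSrc k e) + g (diamondTgt k e))| ≤ 1
      convert this using 2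
      ring
  · show 2 * c ≤ 2 * g v - 2 * g u
    linarith

lemma LipLower.zero : LipLower 0 false true 1 := by
  refine ⟨fun b => match b with
    | false => 0
    | true => 1, ?_, ?_⟩
  · intro e
    show |(1:ℝ) - 0| ≤ 1
    simp
  · show (1:ℝ) ≤ 1 - 0
    simp

open Classical in
lemma LipLower.mid (k : ℕ) (e : DiamondEdge k) {i j : ℕ} (hij : i ≠ j) :
    LipLower (k+1) (Sum.inr (e, i)) (Sum.inr (e, j)) 2 := by
  refine ⟨fun w => match w with
    | Sum.inl _ => 0
    | Sum.inr (e', l) => if e' = e ∧ l = j then 1 else if e' = e ∧ l = i then -1 else 0, ?_, ?_⟩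
  · rintro ⟨e', l, b⟩
    cases b
    · show |(if e' = e ∧ l = j then (1:ℝ) else if e' = e ∧ l = i then -1 else 0) - 0| ≤ 1
      split_ifs <;> simp
    · show |(0:ℝ) - (if e' = e ∧ l = j then (1:ℝ) else if e' = e ∧ l = i then -1 else 0)| ≤ 1
      split_ifs <;> simp
  · show (2:ℝ) ≤ (if e = e ∧ j = j then (1:ℝ) else if e = e ∧ j = i then -1 else 0)
      - (if e = e ∧ i = j then (1:ℝ) else if e = e ∧ i = i then -1 else 0)
    simp [hij]
    norm_num

/-! ## Analytic part -/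

section Analytic

variable {X : Type*} [NormedAddCommGroup X] [NormedSpace ℝ X]

/-- Pigeonhole in a finite-dimensional quotient: a bounded sequence has two distinct terms whose
difference is `δ`-close to the closed finite-codimensional subspace `S`. -/
lemma exists_close_mod (S : Submodule ℝ X) (hS : IsClosed (S : Set X))
    (hfd : FiniteDimensional ℝ (X ⧸ S)) (y : ℕ → X) (C : ℝ) (hy : ∀ i, ‖y i‖ ≤ C)
    {δ : ℝ} (hδ : 0 < δ) :
    ∃ i j : ℕ, i ≠ j ∧ ∃ m : X, ‖m‖ < δ ∧ (y i - y j) - m ∈ S := by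
  have : IsClosed (S : Set X) := hS
  have : ProperSpace (X ⧸ S) := FiniteDimensional.proper_real _
  have hb : ∀ n, (Submodule.Quotient.mk (y n) : X ⧸ S) ∈ Metric.closedBall (0 : X ⧸ S) C := by
    intro n
    rw [mem_closedBall_zero_iff]
    exact (Submodule.Quotient.norm_mk_le S (y n)).trans (hy n)
  obtain ⟨a, -, φ, hφ, hlim⟩ := tendsto_subseq_of_bounded Metric.isBounded_closedBall hb
  have hev := (Metric.tendsto_atTop.1 hlim) (δ / 2) (by positivity)
  obtain ⟨N, hN⟩ := hev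
  have h1 := hN N le_rfl
  have h2 := hN (N + 1) (Nat.le_succ N)
  have h3 : dist ((Submodule.Quotient.mk (y (φ N)) : X ⧸ S))
      (Submodule.Quotient.mk (y (φ (N + 1)))) < δ := by
    have := dist_triangle_right ((Submodule.Quotient.mk (y (φ N)) : X ⧸ S))
      (Submodule.Quotient.mk (y (φ (N + 1)))) a
    simp only [Function.comp] at h1 h2
    linarith
  rw [dist_eq_norm, ← Submodule.Quotient.mk_sub] at h3
  obtain ⟨m, hm, hmn⟩ := Submodule.Quotient.norm_mk_lt
    (Submodule.Quotient.mk (y (φ N) - y (φ (N + 1))) : X ⧸ S)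
    (sub_pos.2 h3)
  refine ⟨φ N, φ (N + 1), (hφ (Nat.lt_succ_self N)).ne, m, by linarith, ?_⟩
  rw [← Submodule.Quotient.mk_eq_zero S, Submodule.Quotient.mk_sub, hm, sub_self]

/-- The maximum of `‖x + s w‖`, `‖x - s w‖` is monotone in `s ∈ [0,1]`. -/
lemma norm_add_smul_le_max (x w : X) {l : ℝ} (h0 : 0 ≤ l) (h1 : l ≤ 1) :
    ‖x + l • w‖ ≤ max ‖x + w‖ ‖x - w‖ := by
  have e : x + l • w = ((1 + l) / 2) • (x + w) + ((1 - l) / 2) • (x - w) := by
    module
  rw [e]
  refine (norm_add_le _ _).trans ?_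
  rw [norm_smul, norm_smul, Real.norm_of_nonneg (by linarith), Real.norm_of_nonneg (by linarith)]
  have a1 := le_max_left ‖x + w‖ ‖x - w‖
  have a2 := le_max_right ‖x + w‖ ‖x - w‖
  have b1 : (1 + l) / 2 * ‖x + w‖ ≤ (1 + l) / 2 * max ‖x + w‖ ‖x - w‖ :=
    mul_le_mul_of_nonneg_left a1 (by linarith)
  have b2 : (1 - l) / 2 * ‖x - w‖ ≤ (1 - l) / 2 * max ‖x + w‖ ‖x - w‖ :=
    mul_le_mul_of_nonneg_left a2 (by linarith)
  nlinarith

lemma norm_sub_smul_le_max (x w : X) {l : ℝ} (h0 : 0 ≤ l) (h1 : l ≤ 1) :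
    ‖x - l • w‖ ≤ max ‖x + w‖ ‖x - w‖ := by
  have := norm_add_smul_le_max x (-w) h0 h1
  rw [smul_neg, ← sub_eq_add_neg, ← sub_eq_add_neg, sub_neg_eq_add, max_comm] at this
  exact this

/-- The hypothesis on the norm: max-midpoint modulus at least `√(1+t²/4) - 1`, in unbundled form. -/
def MaxMid (X : Type*) [NormedAddCommGroup X] [NormedSpace ℝ X] : Prop :=
  ∀ t : ℝ, 0 < t → ∀ x : X, ‖x‖ = 1 → ∀ η : ℝ, 0 < η →
    ∃ S : Submodule ℝ X, IsClosed (S : Set X) ∧ FiniteDimensional ℝ (X ⧸ S) ∧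
      ∀ y ∈ S, ‖y‖ = 1 → Real.sqrt (1 + t ^ 2 / 4) - 1 - η ≤ max ‖x + t • y‖ ‖x - t • y‖ - 1

/-- approximate version of the key step -/
lemma key_step_approx (H : MaxMid X) (x : X) (hx : x ≠ 0) (y : ℕ → X) (R r : ℝ) (hr : 0 < r)
    (h1 : ∀ i, ‖x + y i‖ ≤ R) (h2 : ∀ i, ‖x - y i‖ ≤ R)
    (h3 : ∀ i j, i ≠ j → 2 * r ≤ ‖y i - y j‖) (ε : ℝ) (hε : 0 < ε) (hεr : ε < r) :
    ‖x‖ ^ 2 + (r - ε) ^ 2 / 4 ≤ (R + ε * (1 + ‖x‖)) ^ 2 := by
  have hxn : 0 < ‖x‖ := norm_pos_iff.2 hx
  set t : ℝ := (r - ε) / ‖x‖ with ht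
  have htpos : 0 < t := div_pos (by linarith) hxn
  have hxu : ‖(‖x‖⁻¹) • x‖ = 1 := by
    rw [norm_smul, norm_inv, norm_norm, inv_mul_cancel₀ hxn.ne']
  obtain ⟨S, hScl, hSfd, hS⟩ := H t htpos _ hxu ε hε
  have hyb : ∀ i, ‖y i‖ ≤ R + ‖x‖ := by
    intro i
    have : y i = (x + y i) - x := by abel
    calc ‖y i‖ = ‖(x + y i) - x‖ := by rw [← this]
      _ ≤ ‖x + y i‖ + ‖x‖ := norm_sub_le _ _
      _ ≤ R + ‖x‖ := by linarith [h1 i]
  obtain ⟨i, j, hij, m, hm, hmS⟩ := exists_close_mod S hScl hSfd y _ hyb hε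
  obtain ⟨z', hz'⟩ : ∃ z' : X, z' = (1 / 2 : ℝ) • ((y i - y j) - m) := ⟨_, rfl⟩
  have hz'S : z' ∈ S := by rw [hz']; exact S.smul_mem _ hmS
  -- norm of z'
  have hz'n : r - ε < ‖z'‖ := by
    have a : ‖y i - y j‖ ≤ ‖(y i - y j) - m‖ + ‖m‖ := by
      have : y i - y j = ((y i - y j) - m) + m := by abel
      calc ‖y i - y j‖ = ‖((y i - y j) - m) + m‖ := by rw [← this]
        _ ≤ _ := norm_add_le _ _
    have b : ‖z'‖ = 1 / 2 * ‖(y i - y j) - m‖ := by
      rw [hz', norm_smul, Real.norm_of_nonneg (by norm_num)]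
    have := h3 i j hij
    rw [b]; linarith
  have hz'pos : 0 < ‖z'‖ := by linarith
  -- upper bounds
  have hup1 : ‖x + z'‖ ≤ R + ε := by
    have e : x + z' = (1 / 2 : ℝ) • (x + y i) + (1 / 2 : ℝ) • (x - y j) - (1 / 2 : ℝ) • m := by
      rw [hz']; module
    rw [e]
    refine (norm_sub_le _ _).trans ?_
    have := norm_add_le ((1 / 2 : ℝ) • (x + y i)) ((1 / 2 : ℝ) • (x - y j))
    rw [norm_smul, norm_smul, Real.norm_of_nonneg (by norm_num : (0:ℝ) ≤ 1 / 2)] at this
    rw [norm_smul, Real.norm_of_nonneg (by norm_num : (0:ℝ) ≤ 1 / 2)]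
    linarith [h1 i, h2 j]
  have hup2 : ‖x - z'‖ ≤ R + ε := by
    have e : x - z' = (1 / 2 : ℝ) • (x - y i) + (1 / 2 : ℝ) • (x + y j) + (1 / 2 : ℝ) • m := by
      rw [hz']; module
    rw [e]
    refine (norm_add_le _ _).trans ?_
    have := norm_add_le ((1 / 2 : ℝ) • (x - y i)) ((1 / 2 : ℝ) • (x + y j))
    rw [norm_smul, norm_smul, Real.norm_of_nonneg (by norm_num : (0:ℝ) ≤ 1 / 2)] at this
    rw [norm_smul, Real.norm_of_nonneg (by norm_num : (0:ℝ) ≤ 1 / 2)]
    linarith [h2 i, h1 j]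
  -- apply the modulus to the normalised vector
  have hyu : ‖(‖z'‖⁻¹) • z'‖ = 1 := by
    rw [norm_smul, norm_inv, norm_norm, inv_mul_cancel₀ hz'pos.ne']
  have hmod := hS _ (S.smul_mem _ hz'S) hyu
  set l : ℝ := (r - ε) / ‖z'‖ with hl
  have hl0 : 0 ≤ l := div_nonneg (by linarith) hz'pos.le
  have hl1 : l ≤ 1 := by rw [hl, div_le_one hz'pos]; exact hz'n.le
  have hsc : t * ‖z'‖⁻¹ = ‖x‖⁻¹ * l := by
    rw [ht, hl]
    field_simp
  have e1 : (‖x‖⁻¹) • x + t • (‖z'‖⁻¹) • z' = (‖x‖⁻¹) • (x + l • z') := by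
    rw [smul_add, smul_smul, smul_smul, hsc]
  have e2 : (‖x‖⁻¹) • x - t • (‖z'‖⁻¹) • z' = (‖x‖⁻¹) • (x - l • z') := by
    rw [smul_sub, smul_smul, smul_smul, hsc]
  rw [e1, e2, norm_smul, norm_smul, norm_inv, norm_norm] at hmod
  have hM : max ‖x + z'‖ ‖x - z'‖ ≤ R + ε := max_le hup1 hup2
  have g1 := (norm_add_smul_le_max x z' hl0 hl1).trans hM
  have g2 := (norm_sub_smul_le_max x z' hl0 hl1).trans hM
  have hinv : 0 < ‖x‖⁻¹ := inv_pos.2 hxn
  have g3 : max (‖x‖⁻¹ * ‖x + l • z'‖) (‖x‖⁻¹ * ‖x - l • z'‖) ≤ ‖x‖⁻¹ * (R + ε) :=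
    max_le (mul_le_mul_of_nonneg_left g1 hinv.le) (mul_le_mul_of_nonneg_left g2 hinv.le)
  have g4 : Real.sqrt (1 + t ^ 2 / 4) ≤ ‖x‖⁻¹ * (R + ε) + ε := by linarith
  have g5 : ‖x‖ * Real.sqrt (1 + t ^ 2 / 4) ≤ R + ε * (1 + ‖x‖) := by
    have := mul_le_mul_of_nonneg_left g4 hxn.le
    rw [mul_add, ← mul_assoc, mul_inv_cancel₀ hxn.ne', one_mul] at this
    linarith
  have g6 : (‖x‖ * Real.sqrt (1 + t ^ 2 / 4)) ^ 2 = ‖x‖ ^ 2 + (r - ε) ^ 2 / 4 := by
    rw [mul_pow, Real.sq_sqrt (by positivity), ht]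
    field_simp
  rw [← g6]
  exact pow_le_pow_left₀ (by positivity) g5 2

/-- The key step: `‖x‖² + r²/4 ≤ R²`. -/
lemma key_step (H : MaxMid X) (x : X) (y : ℕ → X) (R r : ℝ) (hr : 0 < r)
    (h1 : ∀ i, ‖x + y i‖ ≤ R) (h2 : ∀ i, ‖x - y i‖ ≤ R)
    (h3 : ∀ i j, i ≠ j → 2 * r ≤ ‖y i - y j‖) :
    ‖x‖ ^ 2 + r ^ 2 / 4 ≤ R ^ 2 := by
  by_cases hx : x = 0
  · subst hx
    have a := h3 0 1 (by norm_num)
    have b := norm_sub_le (y 0) (y 1)
    have c1 := h1 0
    have c2 := h1 1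
    simp only [zero_add] at c1 c2
    have : r ≤ R := by linarith
    simp only [norm_zero]
    nlinarith
  · have hlim1 : Filter.Tendsto (fun ε : ℝ => ‖x‖ ^ 2 + (r - ε) ^ 2 / 4) (nhdsWithin 0 (Set.Ioi 0))
        (nhds (‖x‖ ^ 2 + (r - 0) ^ 2 / 4)) := by
      apply Filter.Tendsto.mono_left _ nhdsWithin_le_nhds
      apply Continuous.tendsto
      fun_prop
    have hlim2 : Filter.Tendsto (fun ε : ℝ => (R + ε * (1 + ‖x‖)) ^ 2) (nhdsWithin 0 (Set.Ioi 0))
        (nhds ((R + 0 * (1 + ‖x‖)) ^ 2)) := by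
      apply Filter.Tendsto.mono_left _ nhdsWithin_le_nhds
      apply Continuous.tendsto
      fun_prop
    have hev : ∀ᶠ ε : ℝ in nhdsWithin 0 (Set.Ioi 0),
        ‖x‖ ^ 2 + (r - ε) ^ 2 / 4 ≤ (R + ε * (1 + ‖x‖)) ^ 2 := by
      have : Set.Ioo (0:ℝ) r ∈ nhdsWithin (0:ℝ) (Set.Ioi 0) := Ioo_mem_nhdsGT hr
      filter_upwards [this] with ε hε
      exact key_step_approx H x hx y R r hr h1 h2 h3 ε hε.1 hε.2
    have := le_of_tendsto_of_tendsto hlim1 hlim2 hev
    simpa using this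

end Analytic

/-! ## The induction over the levels -/

section Induction

variable {X : Type*} [NormedAddCommGroup X] [NormedSpace ℝ X]

/-- some edge of `D k` -/
def someEdge : (k : ℕ) → DiamondEdge k
  | 0 => ()
  | k + 1 => (someEdge k, 0, false)

/-- Recursive lower-bound condition: the two poles are `c 2^k` apart and any two distinct middle
vertices of the same edge of level `j` are `c 2^(k-j)` apart. -/
def LowerCond : (k : ℕ) → (DiamondVertex k → X) → ℝ → Prop
  | 0, f, c => c ≤ ‖f true - f false‖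
  | k + 1, f, c =>
    (∀ (e : DiamondEdge k) (i j : ℕ), i ≠ j →
      2 * c ≤ ‖f (Sum.inr (e, i)) - f (Sum.inr (e, j))‖) ∧
      LowerCond k (fun u => f (Sum.inl u)) (2 * c)

lemma lowerCond_of_lipLower : ∀ (k : ℕ) (f : DiamondVertex k → X) (s : ℝ),
    (∀ u v c, LipLower k u v c → s * c ≤ ‖f u - f v‖) → LowerCond k f s
  | 0, f, s, h => by
    have := h _ _ _ LipLower.zero
    rw [norm_sub_rev, mul_one] at this
    exact this
  | k + 1, f, s, h => by
    refine ⟨fun e i j hij => ?_, lowerCond_of_lipLower k _ (2 * s) (fun u v c hc => ?_)⟩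
    · have := h _ _ _ (LipLower.mid k e hij)
      linarith
    · have := h _ _ _ hc.inl
      calc 2 * s * c = s * (2 * c) := by ring
        _ ≤ _ := this

lemma sq_mul_le_of_lowerCond (H : MaxMid X) : ∀ (k : ℕ) (f : DiamondVertex k → X) (A c : ℝ),
    0 < c → (∀ e, ‖f (diamondTgt k e) - f (diamondSrc k e)‖ ≤ A) → LowerCond k f c →
    c ^ 2 * (1 + (k : ℝ) / 4) ≤ A ^ 2
  | 0, f, A, c, hc, hA, hL => by
    have h1 : c ≤ A := le_trans hL (hA ())
    simp only [Nat.cast_zero, zero_div, add_zero, mul_one]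
    exact pow_le_pow_left₀ hc.le h1 2
  | k + 1, f, A, c, hc, hA, hL => by
    obtain ⟨hmid, hL'⟩ := hL
    have hstep : ∀ e : DiamondEdge k,
        ‖f (Sum.inl (diamondTgt k e)) - f (Sum.inl (diamondSrc k e))‖ ^ 2 ≤ 4 * A ^ 2 - c ^ 2 := by
      intro e
      have hk := key_step H
        ((1 / 2 : ℝ) • (f (Sum.inl (diamondTgt k e)) - f (Sum.inl (diamondSrc k e))))
        (fun i => f (Sum.inr (e, i)) -
          (1 / 2 : ℝ) • (f (Sum.inl (diamondSrc k e)) + f (Sum.inl (diamondTgt k e))))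
        A c hc ?_ ?_ ?_
      · rw [norm_smul, Real.norm_of_nonneg (by norm_num : (0:ℝ) ≤ 1 / 2)] at hk
        nlinarith
      · intro i
        have := hA (e, i, false)
        convert this using 2
        show _ = f (Sum.inr (e, i)) - f (Sum.inl (diamondSrc k e))
        module
      · intro i
        have := hA (e, i, true)
        convert this using 2
        show _ = f (Sum.inl (diamondTgt k e)) - f (Sum.inr (e, i))
        module
      · intro i j hij
        have := hmid e i j hij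
        convert this using 2
        abel
    have hnn : 0 ≤ 4 * A ^ 2 - c ^ 2 := le_trans (sq_nonneg _) (hstep (someEdge k))
    have ih := sq_mul_le_of_lowerCond H k (fun u => f (Sum.inl u)) (Real.sqrt (4 * A ^ 2 - c ^ 2))
      (2 * c) (by linarith) (fun e => Real.le_sqrt_of_sq_le (hstep e)) hL'
    rw [Real.sq_sqrt hnn] at ih
    push_cast
    nlinarith

end Induction

/-- **Package P4a.** If the given norm of `E` has max-midpoint modulus at least `√(1+t²/4) - 1` at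
every `t > 0`, then every map of the depth-`k` countably branching diamond graph into `E` of
distortion at most `D` satisfies `1 + k/4 ≤ D²`. -/
theorem diamond_distortion (E : RealBanach)
    (h : ∀ t : ℝ, 0 < t → E.MaxMidpointModulusGE E.norm t (Real.sqrt (1 + t ^ 2 / 4) - 1))
    (k : ℕ) (f : DiamondVertex k → E.X) (D : ℝ) (hD : E.HasDistortionLE k f D) :
    1 + (k : ℝ) / 4 ≤ D ^ 2 := by
  letI := E.normed
  letI := E.space
  have H : MaxMid E.X := by
    intro t ht x hx η hη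
    obtain ⟨F, ⟨S, hSF, hcl, hfd⟩, hF⟩ := h t ht x hx η hη
    refine ⟨S, by rw [hSF]; exact hcl, hfd, fun y hy hy1 => ?_⟩
    exact hF y (by rw [← hSF]; exact hy) hy1
  obtain ⟨s, hs, hbd⟩ := hD
  have hA : ∀ e, ‖f (diamondTgt k e) - f (diamondSrc k e)‖ ≤ D * s := by
    intro e
    have := (hbd (diamondSrc k e) (diamondTgt k e)).2
    rw [dist_src_tgt, Nat.cast_one, mul_one, norm_sub_rev] at this
    exact this
  have hL : LowerCond k f s := by
    apply lowerCond_of_lipLower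
    intro u v c hc
    exact (mul_le_mul_of_nonneg_left hc.le_dist hs.le).trans (hbd u v).1
  have := sq_mul_le_of_lowerCond H k f (D * s) s hs hA hL
  have hs2 : 0 < s ^ 2 := by positivity
  rw [mul_pow, mul_comm] at this
  exact le_of_mul_le_mul_right this hs2

end Crest.Agent.helper95
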