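import Mathlib

set_option autoImplicit false

namespace Crest.Agent.helper9

open Filter Topology

section Abstract

variable {X : Type*} [NormedAddCommGroup X] [NormedSpace ℝ X]

/-- If all signed sums of a sequence over finite sets `A` are `O(√|A|)`, the sequence is weakly
null. -/
theorem tendsto_of_signed_sums (y : ℕ → X) (C : ℝ)
    (hy : ∀ (A : Finset ℕ) (s : ℕ → ℝ), (∀ n, s n = 1 ∨ s n = -1) →
      ‖∑ n ∈ A, s n • y n‖ ≤ C * Real.sqrt A.card)
    (φ : X →L[ℝ] ℝ) : Tendsto (fun n => φ (y n)) atTop (𝓝 0) := by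
  by_contra hcon
  rw [Metric.tendsto_atTop] at hcon
  push Not at hcon
  obtain ⟨ε, hε, hN⟩ := hcon
  have hinf : {n : ℕ | ε ≤ |φ (y n)|}.Infinite := by
    rw [Set.infinite_iff_exists_gt]
    intro a
    obtain ⟨n, hn, hn'⟩ := hN (a + 1)
    refine ⟨n, ?_, by omega⟩
    simpa [Real.dist_eq] using hn'
  -- choose k large
  obtain ⟨k, hk⟩ := exists_nat_gt ((‖φ‖ * C / ε) ^ 2)
  obtain ⟨A, hA, hAk⟩ := hinf.exists_subset_card_eq k
  let s : ℕ → ℝ := fun n => if 0 ≤ φ (y n) then 1 else -1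
  have hs : ∀ n, s n = 1 ∨ s n = -1 := by
    intro n; by_cases h : 0 ≤ φ (y n) <;> simp [s, h]
  have h1 : φ (∑ n ∈ A, s n • y n) = ∑ n ∈ A, |φ (y n)| := by
    rw [map_sum]
    refine Finset.sum_congr rfl (fun n _ => ?_)
    rw [map_smul, smul_eq_mul]
    by_cases h : 0 ≤ φ (y n)
    · simp [s, h, abs_of_nonneg h]
    · simp [s, h, abs_of_neg (not_le.mp h)]
  have h2 : (k : ℝ) * ε ≤ ∑ n ∈ A, |φ (y n)| := by
    have : ∑ _n ∈ A, ε ≤ ∑ n ∈ A, |φ (y n)| :=
      Finset.sum_le_sum (fun n hn => hA hn)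
    simpa [hAk] using this
  have h3 : ∑ n ∈ A, |φ (y n)| ≤ ‖φ‖ * (C * Real.sqrt k) := by
    rw [← h1]
    calc φ (∑ n ∈ A, s n • y n) ≤ ‖φ (∑ n ∈ A, s n • y n)‖ := Real.le_norm_self _
      _ ≤ ‖φ‖ * ‖∑ n ∈ A, s n • y n‖ := φ.le_opNorm _
      _ ≤ ‖φ‖ * (C * Real.sqrt k) := by
          have := hy A s hs
          rw [hAk] at this
          exact mul_le_mul_of_nonneg_left this (norm_nonneg _)
  have hkpos : (0 : ℝ) < k := lt_of_le_of_lt (sq_nonneg _) hk
  have hsq : 0 < Real.sqrt k := Real.sqrt_pos.mpr hkpos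
  have h4 : Real.sqrt k * ε ≤ ‖φ‖ * C := by
    have h5 : Real.sqrt k * (Real.sqrt k * ε) ≤ Real.sqrt k * (‖φ‖ * C) := by
      have : Real.sqrt k * Real.sqrt k = k := Real.mul_self_sqrt hkpos.le
      calc Real.sqrt k * (Real.sqrt k * ε) = k * ε := by rw [← mul_assoc, this]
        _ ≤ ‖φ‖ * (C * Real.sqrt k) := h2.trans h3
        _ = Real.sqrt k * (‖φ‖ * C) := by ring
    exact le_of_mul_le_mul_left h5 hsq
  have h6 : Real.sqrt k ≤ ‖φ‖ * C / ε := by
    rw [le_div_iff₀ hε]; exact h4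
  have h7 : (k : ℝ) ≤ (‖φ‖ * C / ε) ^ 2 := by
    have := Real.sq_sqrt hkpos.le
    calc (k : ℝ) = Real.sqrt k ^ 2 := this.symm
      _ ≤ (‖φ‖ * C / ε) ^ 2 := by
        apply pow_le_pow_left₀ hsq.le h6
  exact absurd hk (not_lt.mpr h7)

/-- A weakly null sequence gets arbitrarily close to any closed finite-codimensional subspace. -/
theorem exists_near_submodule (y : ℕ → X)
    (hy : ∀ φ : X →L[ℝ] ℝ, Tendsto (fun n => φ (y n)) atTop (𝓝 0))
    (S : Submodule ℝ X) (hS : IsClosed (S : Set X)) (hfin : FiniteDimensional ℝ (X ⧸ S))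
    (η : ℝ) (hη : 0 < η) : ∀ᶠ n in atTop, ∃ y' ∈ S, ‖y n - y'‖ < η := by
  have : IsClosed (S : Set X) := hS
  let b := Module.finBasis ℝ (X ⧸ S)
  -- lifts of the basis vectors
  have hsurj : ∀ i, ∃ e : X, S.mkQ e = b i := fun i => S.mkQ_surjective (b i)
  choose e he using hsurj
  let φ : Fin (Module.finrank ℝ (X ⧸ S)) → (X →L[ℝ] ℝ) := fun i =>
    (LinearMap.toContinuousLinearMap (b.coord i)).comp S.mkQL
  have hφ : ∀ i x, φ i x = b.repr (S.mkQ x) i := by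
    intro i x
    simp [φ]
  have hlim : Tendsto (fun n => ∑ i, |φ i (y n)| * ‖e i‖) atTop (𝓝 0) := by
    have : Tendsto (fun n => ∑ i, |φ i (y n)| * ‖e i‖) atTop (𝓝 (∑ i : Fin (Module.finrank ℝ (X ⧸ S)), |(0:ℝ)| * ‖e i‖)) := by
      refine tendsto_finsetSum _ (fun i _ => ?_)
      exact ((hy (φ i)).abs).mul_const _
    simpa using this
  filter_upwards [hlim.eventually (gt_mem_nhds hη)] with n hn
  refine ⟨y n - ∑ i, φ i (y n) • e i, ?_, ?_⟩
  · rw [← Submodule.Quotient.mk_eq_zero, ← Submodule.mkQ_apply, map_sub, map_sum]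
    have : ∑ i, S.mkQ (φ i (y n) • e i) = S.mkQ (y n) := by
      conv_rhs => rw [← b.sum_repr (S.mkQ (y n))]
      refine Finset.sum_congr rfl (fun i _ => ?_)
      rw [map_smul, he, hφ]
    rw [this, sub_self]
  · have : y n - (y n - ∑ i, φ i (y n) • e i) = ∑ i, φ i (y n) • e i := by abel
    rw [this]
    refine lt_of_le_of_lt (norm_sum_le _ _) ?_
    refine lt_of_le_of_lt (le_of_eq ?_) hn
    refine Finset.sum_congr rfl (fun i _ => ?_)
    rw [norm_smul, Real.norm_eq_abs]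

/-- Abstract criterion: a nonempty set `T` of unit vectors that is stable under adding
"almost-in-`S`" increments of size at least `d`, for every closed finite-codimensional `S`,
prevents any equivalent norm from being asymptotically uniformly convex. -/
theorem noAUC_core (T : Set X) (hT : T.Nonempty) (d : ℝ) (hd : 0 < d)
    (hnorm : ∀ x ∈ T, ‖x‖ = 1)
    (hstep : ∀ x ∈ T, ∀ S : Submodule ℝ X, IsClosed (S : Set X) → FiniteDimensional ℝ (X ⧸ S) →
      ∀ η : ℝ, 0 < η → ∃ y : X, ∃ y' ∈ S, ‖y - y'‖ ≤ η ∧ d ≤ ‖y‖ ∧ x + y ∈ T)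
    (N : X → ℝ) (hadd : ∀ x y : X, N (x + y) ≤ N x + N y)
    (hhom : ∀ (a : ℝ) (x : X), N (a • x) = |a| * N x)
    (hequiv : ∃ a b : ℝ, 0 < a ∧ ∀ x : X, a * ‖x‖ ≤ N x ∧ N x ≤ b * ‖x‖)
    (hAUC : ∀ t : ℝ, 0 < t → ∃ c : ℝ, 0 < c ∧ ∀ x : X, N x = 1 → ∃ F : Set X,
      (∃ S : Submodule ℝ X, (S : Set X) = F ∧ IsClosed F ∧ FiniteDimensional ℝ (X ⧸ S)) ∧
      ∀ y ∈ F, N y = 1 → c ≤ N (x + t • y) - 1) : False := by
  obtain ⟨a, b, ha, hab⟩ := hequiv
  obtain ⟨x₀, hx₀⟩ := hT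
  have hTa : ∀ x ∈ T, a ≤ N x := fun x hx => by
    have := (hab x).1; rwa [hnorm x hx, mul_one] at this
  have hTb : ∀ x ∈ T, N x ≤ b := fun x hx => by
    have := (hab x).2; rwa [hnorm x hx, mul_one] at this
  have hb : 0 < b := lt_of_lt_of_le ha ((hTa x₀ hx₀).trans (hTb x₀ hx₀))
  set t₀ : ℝ := a * d / (2 * b) with ht₀
  have ht₀pos : 0 < t₀ := by positivity
  obtain ⟨c, hc, hcF⟩ := hAUC t₀ ht₀pos
  set M : ℝ := sSup (N '' T) with hM
  have hbdd : BddAbove (N '' T) := ⟨b, by rintro _ ⟨x, hx, rfl⟩; exact hTb x hx⟩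
  have hne : (N '' T).Nonempty := ⟨N x₀, x₀, hx₀, rfl⟩
  have hMa : a ≤ M := (hTa x₀ hx₀).trans (le_csSup hbdd ⟨x₀, hx₀, rfl⟩)
  have hMpos : 0 < M := lt_of_lt_of_le ha hMa
  have hlt : M / (1 + c / 2) < M := by
    rw [div_lt_iff₀ (by positivity)]
    nlinarith
  obtain ⟨_, ⟨x, hx, rfl⟩, hxM⟩ := exists_lt_of_lt_csSup hne hlt
  set ρ : ℝ := N x with hρ
  have hρa : a ≤ ρ := hTa x hx
  have hρb : ρ ≤ b := hTb x hx
  have hρpos : 0 < ρ := lt_of_lt_of_le ha hρa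
  have hxhat : N (ρ⁻¹ • x) = 1 := by
    rw [hhom, abs_of_pos (inv_pos.mpr hρpos), ← hρ, inv_mul_cancel₀ hρpos.ne']
  obtain ⟨F, ⟨S, rfl, hScl, hSfin⟩, hF⟩ := hcF _ hxhat
  set η : ℝ := min (a * d / (2 * b)) (c * a / (2 * b)) with hη
  have hηpos : 0 < η := lt_min (by positivity) (by positivity)
  have hη1 : b * η ≤ a * d / 2 := by
    have : η ≤ a * d / (2 * b) := min_le_left _ _
    calc b * η ≤ b * (a * d / (2 * b)) := mul_le_mul_of_nonneg_left this hb.le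
      _ = a * d / 2 := by field_simp
  have hη2 : b * η ≤ c * a / 2 := by
    have : η ≤ c * a / (2 * b) := min_le_right _ _
    calc b * η ≤ b * (c * a / (2 * b)) := mul_le_mul_of_nonneg_left this hb.le
      _ = c * a / 2 := by field_simp
  obtain ⟨y, y', hy'S, hyy', hdy, hxy⟩ := hstep x hx S hScl hSfin η hηpos
  have hNdiff : N (y - y') ≤ b * η :=
    ((hab _).2).trans (mul_le_mul_of_nonneg_left hyy' hb.le)
  have hNdiff' : N (y' - y) ≤ b * η := by
    have : y' - y = (-1 : ℝ) • (y - y') := by simp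
    rw [this, hhom]; simpa using hNdiff
  have hNy : a * d ≤ N y := (mul_le_mul_of_nonneg_left hdy ha.le).trans (hab y).1
  set σ : ℝ := N y' with hσ
  have hσge : a * d / 2 ≤ σ := by
    have h1 : N y ≤ N y' + N (y - y') := by
      have := hadd y' (y - y'); simpa using this
    linarith
  have hσpos : 0 < σ := lt_of_lt_of_le (by positivity) hσge
  have hyhat : N (σ⁻¹ • y') = 1 := by
    rw [hhom, abs_of_pos (inv_pos.mpr hσpos), ← hσ, inv_mul_cancel₀ hσpos.ne']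
  have hyhatS : σ⁻¹ • y' ∈ (S : Set X) := S.smul_mem _ hy'S
  have hkey := hF _ hyhatS hyhat
  -- convexity
  set s : ℝ := σ / ρ with hs
  have hspos : 0 < s := by positivity
  have hst : t₀ ≤ s := by
    rw [ht₀, hs, div_le_div_iff₀ (by positivity) hρpos]
    nlinarith
  set lam : ℝ := t₀ / s with hlam
  have hlampos : 0 < lam := by positivity
  have hlam1 : lam ≤ 1 := by rw [hlam, div_le_one hspos]; exact hst
  have hcomb : ρ⁻¹ • x + t₀ • (σ⁻¹ • y') =
      lam • (ρ⁻¹ • (x + y')) + (1 - lam) • (ρ⁻¹ • x) := by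
    have h1 : t₀ * σ⁻¹ = lam * ρ⁻¹ := by
      rw [hlam, hs]; field_simp
    rw [smul_smul, h1]
    module
  have hN1 : N (ρ⁻¹ • x + t₀ • (σ⁻¹ • y')) ≤ lam * (ρ⁻¹ * N (x + y')) + (1 - lam) := by
    rw [hcomb]
    refine (hadd _ _).trans ?_
    rw [hhom, hhom, hhom, hxhat, abs_of_pos hlampos, abs_of_pos (inv_pos.mpr hρpos),
      abs_of_nonneg (by linarith), mul_one]
  have hN2 : 1 + c ≤ ρ⁻¹ * N (x + y') := by
    have h1 : c + lam ≤ lam * (ρ⁻¹ * N (x + y')) := by linarith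
    have h2 : lam * (1 + c) ≤ c + lam := by nlinarith
    exact le_of_mul_le_mul_left (h2.trans h1) hlampos
  have hN3 : ρ * (1 + c) ≤ N (x + y') := by
    have := mul_le_mul_of_nonneg_left hN2 hρpos.le
    rwa [← mul_assoc, mul_inv_cancel₀ hρpos.ne', one_mul] at this
  have hN4 : N (x + y') ≤ N (x + y) + b * η := by
    have h1 : x + y' = (x + y) + (y' - y) := by abel
    rw [h1]
    exact (hadd _ _).trans (by linarith)
  have hN5 : N (x + y) ≤ M := le_csSup hbdd ⟨x + y, hxy, rfl⟩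
  have hfin : M < (1 + c / 2) * ρ := by
    rwa [div_lt_iff₀ (by positivity), mul_comm] at hxM
  nlinarith

end Abstract

end Crest.Agent.helper9
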