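import Mathlib
import Crest.Prelude.Def_TreeProducts
import Crest.Agent.Lib.helper9_Abstract

set_option autoImplicit false

open MeasureTheory ProbabilityTheory Crest.AnalysisR.TreeProduct

namespace Crest.Agent.helper9

variable {Ω : Type} [MeasurableSpace Ω] {μ : Measure Ω}

/-- The non-root vertices on the root path of `v` (the nonempty suffixes of the list). -/
def sfx : List ℕ → Finset (List ℕ)
  | [] => ∅
  | a :: v => insert (a :: v) (sfx v)

lemma length_le_of_mem_sfx : ∀ {v u : List ℕ}, u ∈ sfx v → u.length ≤ v.length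
  | [], u, h => by simp [sfx] at h
  | a :: v, u, h => by
    simp only [sfx, Finset.mem_insert] at h
    rcases h with rfl | h
    · exact le_rfl
    · have := length_le_of_mem_sfx h
      simp only [List.length_cons]; omega

lemma cons_notMem_sfx (a : ℕ) (v : List ℕ) : a :: v ∉ sfx v := fun h => by
  have := length_le_of_mem_sfx h
  simp at this

omit [MeasurableSpace Ω] in
lemma pathProduct_eq_prod (W : List ℕ → Ω → ℝ) :
    ∀ v : List ℕ, pathProduct W v = fun z => ∏ u ∈ sfx v, W u z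
  | [] => by funext z; simp [pathProduct, sfx]
  | a :: v => by
    funext z
    simp only [pathProduct, sfx]
    rw [Finset.prod_insert (cons_notMem_sfx a v), pathProduct_eq_prod W v, mul_comm]

lemma measurable_pathProduct {W : List ℕ → Ω → ℝ} (hm : ∀ v, Measurable (W v)) (v : List ℕ) :
    Measurable (pathProduct W v) := by
  rw [pathProduct_eq_prod]
  exact Finset.measurable_prod _ (fun u _ => hm u)

/-- The path product at `v` is independent of any measurable function of finitely many `W u`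
with `u` off the root path of `v`. -/
lemma indepFun_pathProduct {W : List ℕ → Ω → ℝ} (hW : iIndepFun W μ)
    (hm : ∀ v, Measurable (W v)) (v : List ℕ) (T : Finset (List ℕ)) (hT : Disjoint (sfx v) T)
    (ψ : (T → ℝ) → ℝ) (hψ : Measurable ψ) :
    IndepFun (pathProduct W v) (fun z => ψ (fun i => W i z)) μ := by
  have h := hW.indepFun_finset (sfx v) T hT hm
  have hφ : Measurable (fun x : (sfx v) → ℝ => ∏ i, x i) :=
    Finset.measurable_prod _ (fun i _ => measurable_pi_apply i)
  have h2 := h.comp hφ hψ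
  have h3 : pathProduct W v = (fun x : (sfx v) → ℝ => ∏ i, x i) ∘ (fun a (i : sfx v) => W i a) := by
    rw [pathProduct_eq_prod]
    funext z
    simp only [Function.comp]
    rw [Finset.prod_coe_sort (sfx v) (fun u => W u z)]
  rw [h3]
  exact h2

lemma indepFun_pathProduct_single {W : List ℕ → Ω → ℝ} (hW : iIndepFun W μ)
    (hm : ∀ v, Measurable (W v)) (v u : List ℕ) (hu : u ∉ sfx v) :
    IndepFun (pathProduct W v) (W u) μ := by
  have h := hW.indepFun_finsetProd_of_notMem hm hu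
  have h3 : pathProduct W v = ∏ j ∈ sfx v, W j := by
    rw [pathProduct_eq_prod]
    funext z
    simp [Finset.prod_apply]
  rw [h3]
  exact h

section Law

variable {ν : Measure ℝ} {W : List ℕ → Ω → ℝ}

lemma integral_comp_W (hW : IsRealization ν μ W) {u : List ℕ} (hu : u ≠ [])
    {f : ℝ → ℝ} (hf : Measurable f) : ∫ z, f (W u z) ∂μ = ∫ x, f x ∂ν := by
  rw [← hW.2.2 u hu, integral_map (hW.1 u).aemeasurable hf.aestronglyMeasurable]

lemma integrable_comp_W (hW : IsRealization ν μ W) {u : List ℕ} (hu : u ≠ [])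
    {f : ℝ → ℝ} (hf : Measurable f) (hfi : Integrable f ν) :
    Integrable (fun z => f (W u z)) μ := by
  rw [← hW.2.2 u hu] at hfi
  exact (integrable_map_measure hf.aestronglyMeasurable (hW.1 u).aemeasurable).1 hfi

lemma ae_pos [IsProbabilityMeasure ν] (hpos : ν (Set.Ioi 0) = 1) : ∀ᵐ x ∂ν, 0 < x := by
  have : ν (Set.Ioi 0)ᶜ = 0 := (prob_compl_eq_zero_iff measurableSet_Ioi).2 hpos
  exact mem_ae_iff.2 this

lemma integral_abs_nu [IsProbabilityMeasure ν] (hpos : ν (Set.Ioi 0) = 1)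
    (hmean : ∫ x, x ∂ν = 1) : ∫ x, |x| ∂ν = 1 := by
  rw [← hmean]
  refine integral_congr_ae ?_
  filter_upwards [ae_pos hpos] with x hx using abs_of_pos hx

lemma integrable_id_nu (hmean : ∫ x, x ∂ν = 1) : Integrable (fun x : ℝ => x) ν :=
  integrable_of_integral_eq_one hmean

lemma integrable_pathProduct_and [IsProbabilityMeasure ν] (hW : IsRealization ν μ W)
    (hpos : ν (Set.Ioi 0) = 1) (hmean : ∫ x, x ∂ν = 1) [IsProbabilityMeasure μ] :
    ∀ v : List ℕ, Integrable (pathProduct W v) μ ∧ ∫ z, |pathProduct W v z| ∂μ = 1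
  | [] => by
    constructor
    · exact integrable_const _
    · simp [pathProduct]
  | a :: v => by
    obtain ⟨h1, h2⟩ := integrable_pathProduct_and hW hpos hmean v
    have hind : IndepFun (pathProduct W v) (W (a :: v)) μ :=
      indepFun_pathProduct_single hW.2.1 hW.1 v (a :: v) (cons_notMem_sfx a v)
    have hWi : Integrable (W (a :: v)) μ :=
      integrable_comp_W hW (List.cons_ne_nil a v) measurable_id (integrable_id_nu hmean)
    constructor
    · exact hind.integrable_mul h1 hWi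
    · have hind' : IndepFun (fun z => |pathProduct W v z|) (fun z => |W (a :: v) z|) μ :=
        hind.comp (φ := fun x : ℝ => |x|) (ψ := fun x : ℝ => |x|) measurable_abs measurable_abs
      have h3 : ∫ z, |W (a :: v) z| ∂μ = 1 := by
        rw [integral_comp_W hW (List.cons_ne_nil a v) (f := fun x => |x|) measurable_abs]
        exact integral_abs_nu hpos hmean
      have h4 := hind'.integral_fun_mul_eq_mul_integral
        (measurable_pathProduct hW.1 v).abs.aestronglyMeasurable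
        (hW.1 (a :: v)).abs.aestronglyMeasurable
      simp only [pathProduct, abs_mul]
      rw [h4, h2, h3, one_mul]

/-- Signed sum of the centred multipliers at the children `n :: v`, `n ∈ A`. -/
def childSum (W : List ℕ → Ω → ℝ) (v : List ℕ) (A : Finset ℕ) (s : ℕ → ℝ) (z : Ω) : ℝ :=
  ∑ n ∈ A, s n * (W (n :: v) z - 1)

lemma measurable_childSum (hm : ∀ v, Measurable (W v)) (v : List ℕ) (A : Finset ℕ) (s : ℕ → ℝ) :
    Measurable (childSum W v A s) :=
  Finset.measurable_sum _ (fun n _ => ((hm (n :: v)).sub_const 1).const_mul (s n))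

lemma indepFun_pathProduct_childSum (hW : iIndepFun W μ) (hm : ∀ v, Measurable (W v))
    (v : List ℕ) (A : Finset ℕ) (s : ℕ → ℝ) :
    IndepFun (pathProduct W v) (childSum W v A s) μ := by
  classical
  set T : Finset (List ℕ) := A.image (fun n => n :: v) with hT
  have hdisj : Disjoint (sfx v) T := by
    rw [Finset.disjoint_right]
    intro u hu
    obtain ⟨n, _, rfl⟩ := Finset.mem_image.1 hu
    exact cons_notMem_sfx n v
  let ψ : (T → ℝ) → ℝ := fun x =>
    ∑ n ∈ A.attach, s n.1 * (x ⟨n.1 :: v, Finset.mem_image_of_mem _ n.2⟩ - 1)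
  have hψ : Measurable ψ :=
    Finset.measurable_sum _ (fun n _ => by fun_prop)
  have h := indepFun_pathProduct hW hm v T hdisj ψ hψ
  have h2 : childSum W v A s = fun z => ψ (fun i => W i z) := by
    funext z
    simp only [childSum, ψ]
    exact (Finset.sum_attach A (fun n => s n * (W (n :: v) z - 1))).symm
  rw [h2]
  exact h

lemma integrable_sub_one_sq [IsProbabilityMeasure ν] (hmean : ∫ x, x ∂ν = 1)
    (hm2 : Integrable (fun x : ℝ => x ^ 2) ν) : Integrable (fun x : ℝ => (x - 1) ^ 2) ν := by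
  have h : (fun x : ℝ => (x - 1) ^ 2) = fun x => x ^ 2 - 2 * x + 1 := by funext x; ring
  rw [h]
  exact (hm2.sub ((integrable_id_nu hmean).const_mul 2)).add (integrable_const 1)

lemma childSum_facts [IsProbabilityMeasure ν] [IsProbabilityMeasure μ]
    (hW : IsRealization ν μ W) (hmean : ∫ x, x ∂ν = 1)
    (hm2 : Integrable (fun x : ℝ => x ^ 2) ν) (v : List ℕ) (A : Finset ℕ) (s : ℕ → ℝ)
    (hs : ∀ n, s n = 1 ∨ s n = -1) :
    MemLp (childSum W v A s) 2 μ ∧
      ∫ z, (childSum W v A s z) ^ 2 ∂μ = A.card * ∫ x, (x - 1) ^ 2 ∂ν := by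
  let U : ℕ → Ω → ℝ := fun n z => s n * (W (n :: v) z - 1)
  have hUm : ∀ n, Measurable (U n) := fun n => ((hW.1 (n :: v)).sub_const 1).const_mul (s n)
  have hs2 : ∀ n, s n ^ 2 = 1 := fun n => by rcases hs n with h | h <;> simp [h]
  have hUsq : ∀ n z, U n z ^ 2 = (W (n :: v) z - 1) ^ 2 := fun n z => by
    simp only [U, mul_pow, hs2, one_mul]
  have hU2 : ∀ n, MemLp (U n) 2 μ := fun n => by
    rw [memLp_two_iff_integrable_sq (hUm n).aestronglyMeasurable]
    simp only [hUsq]
    exact integrable_comp_W hW (List.cons_ne_nil n v) (f := fun x => (x - 1) ^ 2)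
      (by fun_prop) (integrable_sub_one_sq hmean hm2)
  have hU0 : ∀ n, ∫ z, U n z ∂μ = 0 := fun n => by
    simp only [U]
    rw [integral_const_mul,
      integral_comp_W hW (List.cons_ne_nil n v) (f := fun x => x - 1) (by fun_prop),
      integral_sub (integrable_id_nu hmean) (integrable_const 1), hmean]
    simp
  have hUvar : ∀ n, Var[U n; μ] = ∫ x, (x - 1) ^ 2 ∂ν := fun n => by
    rw [variance_of_integral_eq_zero (hUm n).aemeasurable (hU0 n)]
    simp only [hUsq]
    exact integral_comp_W hW (List.cons_ne_nil n v) (f := fun x => (x - 1) ^ 2) (by fun_prop)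
  have hpair : Set.Pairwise (A : Set ℕ) fun i j => IndepFun (U i) (U j) μ := by
    intro i _ j _ hij
    have hne : i :: v ≠ j :: v := fun h => hij (List.cons.inj h).1
    exact (hW.2.1.indepFun hne).comp (φ := fun x => s i * (x - 1)) (ψ := fun x => s j * (x - 1))
      (by fun_prop) (by fun_prop)
  have hsum : childSum W v A s = ∑ n ∈ A, U n := by
    funext z; simp [childSum, U, Finset.sum_apply]
  have hmem : MemLp (childSum W v A s) 2 μ := by
    rw [hsum]; exact memLp_finsetSum' _ (fun n _ => hU2 n)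
  refine ⟨hmem, ?_⟩
  have hmean0 : ∫ z, childSum W v A s z ∂μ = 0 := by
    simp only [childSum]
    rw [integral_finsetSum _ (fun n _ => (hU2 n).integrable one_le_two)]
    exact Finset.sum_eq_zero (fun n _ => hU0 n)
  rw [← variance_of_integral_eq_zero (measurable_childSum hW.1 v A s).aemeasurable hmean0, hsum,
    IndepFun.variance_sum (fun n _ => hU2 n) hpair]
  simp [hUvar]

lemma integral_abs_le_sqrt [IsProbabilityMeasure μ] {f : Ω → ℝ} (hf : MemLp f 2 μ) :
    ∫ z, |f z| ∂μ ≤ Real.sqrt (∫ z, f z ^ 2 ∂μ) := by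
  have h1 : MemLp (fun z => |f z|) 2 μ := hf.abs
  have h2 := variance_eq_sub h1
  have h3 := variance_nonneg (fun z => |f z|) μ
  have h4 : μ[(fun z => |f z|) ^ 2] = ∫ z, f z ^ 2 ∂μ := by
    refine integral_congr_ae (Filter.Eventually.of_forall (fun z => ?_))
    simp
  rw [h4] at h2
  apply Real.le_sqrt_of_sq_le
  linarith

end Law

section Final

variable {ν : Measure ℝ} {W : List ℕ → Ω → ℝ} [IsProbabilityMeasure ν] [IsProbabilityMeasure μ]

/-- The `L¹` class of the path product at `v`. -/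
noncomputable def xv (hW : IsRealization ν μ W) (hpos : ν (Set.Ioi 0) = 1)
    (hmean : ∫ x, x ∂ν = 1) (v : List ℕ) : Lp ℝ 1 μ :=
  (integrable_pathProduct_and hW hpos hmean v).1.toL1 (pathProduct W v)

lemma coeFn_xv (hW : IsRealization ν μ W) (hpos : ν (Set.Ioi 0) = 1)
    (hmean : ∫ x, x ∂ν = 1) (v : List ℕ) :
    (xv hW hpos hmean v : Ω → ℝ) =ᵐ[μ] pathProduct W v :=
  Integrable.coeFn_toL1 _

lemma xv_mem (hW : IsRealization ν μ W) (hpos : ν (Set.Ioi 0) = 1)
    (hmean : ∫ x, x ∂ν = 1) (v : List ℕ) : xv hW hpos hmean v ∈ productSpan μ W :=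
  Submodule.le_topologicalClosure _ (Submodule.subset_span ⟨v, coeFn_xv hW hpos hmean v⟩)

lemma norm_xv (hW : IsRealization ν μ W) (hpos : ν (Set.Ioi 0) = 1)
    (hmean : ∫ x, x ∂ν = 1) (v : List ℕ) : ‖xv hW hpos hmean v‖ = 1 := by
  rw [xv, L1.norm_of_fun_eq_integral_norm]
  simpa [Real.norm_eq_abs] using (integrable_pathProduct_and hW hpos hmean v).2

lemma norm_signed_sum (hW : IsRealization ν μ W) (hpos : ν (Set.Ioi 0) = 1)
    (hmean : ∫ x, x ∂ν = 1) (v : List ℕ) (A : Finset ℕ) (s : ℕ → ℝ) :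
    ‖∑ n ∈ A, s n • (xv hW hpos hmean (n :: v) - xv hW hpos hmean v)‖ =
      ∫ z, |childSum W v A s z| ∂μ := by
  rw [L1.norm_eq_integral_norm]
  have h1 : ∀ n, (s n • (xv hW hpos hmean (n :: v) - xv hW hpos hmean v) : Lp ℝ 1 μ) =ᵐ[μ]
      fun z => pathProduct W v z * (s n * (W (n :: v) z - 1)) := by
    intro n
    filter_upwards [Lp.coeFn_smul (s n) (xv hW hpos hmean (n :: v) - xv hW hpos hmean v),
      Lp.coeFn_sub (xv hW hpos hmean (n :: v)) (xv hW hpos hmean v),
      coeFn_xv hW hpos hmean (n :: v), coeFn_xv hW hpos hmean v] with z h1 h2 h3 h4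
    rw [h1, Pi.smul_apply, h2, Pi.sub_apply, h3, h4]
    simp only [pathProduct, smul_eq_mul]
    ring
  have h2 : ∀ᵐ z ∂μ, ∀ n, (s n • (xv hW hpos hmean (n :: v) - xv hW hpos hmean v) : Lp ℝ 1 μ) z =
      pathProduct W v z * (s n * (W (n :: v) z - 1)) := ae_all_iff.2 h1
  have h3 : ∫ z, ‖(∑ n ∈ A, s n • (xv hW hpos hmean (n :: v) - xv hW hpos hmean v) : Lp ℝ 1 μ) z‖ ∂μ
      = ∫ z, |pathProduct W v z| * |childSum W v A s z| ∂μ := by
    refine integral_congr_ae ?_
    filter_upwards [Lp.coeFn_fun_finsetSum A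
      (fun n => s n • (xv hW hpos hmean (n :: v) - xv hW hpos hmean v)), h2] with z hz1 hz2
    rw [hz1, Real.norm_eq_abs, ← abs_mul, childSum, Finset.mul_sum]
    congr 1
    exact Finset.sum_congr rfl (fun n _ => hz2 n)
  rw [h3]
  have hind := indepFun_pathProduct_childSum hW.2.1 hW.1 v A s
  have hind' : IndepFun (fun z => |pathProduct W v z|) (fun z => |childSum W v A s z|) μ :=
    hind.comp (φ := fun x : ℝ => |x|) (ψ := fun x : ℝ => |x|) measurable_abs measurable_abs
  rw [hind'.integral_fun_mul_eq_mul_integral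
    (measurable_pathProduct hW.1 v).abs.aestronglyMeasurable
    (measurable_childSum hW.1 v A s).abs.aestronglyMeasurable,
    (integrable_pathProduct_and hW hpos hmean v).2, one_mul]

lemma norm_signed_sum_le (hW : IsRealization ν μ W) (hpos : ν (Set.Ioi 0) = 1)
    (hmean : ∫ x, x ∂ν = 1) (hm2 : Integrable (fun x : ℝ => x ^ 2) ν)
    (v : List ℕ) (A : Finset ℕ) (s : ℕ → ℝ) (hs : ∀ n, s n = 1 ∨ s n = -1) :
    ‖∑ n ∈ A, s n • (xv hW hpos hmean (n :: v) - xv hW hpos hmean v)‖ ≤
      Real.sqrt (∫ x, (x - 1) ^ 2 ∂ν) * Real.sqrt A.card := by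
  rw [norm_signed_sum]
  obtain ⟨h1, h2⟩ := childSum_facts hW hmean hm2 v A s hs
  refine (integral_abs_le_sqrt h1).trans (le_of_eq ?_)
  rw [h2, mul_comm, Real.sqrt_mul (integral_nonneg (fun x => sq_nonneg _))]

lemma norm_diff (hW : IsRealization ν μ W) (hpos : ν (Set.Ioi 0) = 1)
    (hmean : ∫ x, x ∂ν = 1) (v : List ℕ) (n : ℕ) :
    ‖xv hW hpos hmean (n :: v) - xv hW hpos hmean v‖ = ∫ x, |x - 1| ∂ν := by
  have h := norm_signed_sum hW hpos hmean v {n} (fun _ => 1)
  simp only [Finset.sum_singleton, one_smul, childSum, one_mul] at h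
  rw [h]
  exact integral_comp_W hW (List.cons_ne_nil n v) (f := fun x => |x - 1|) (by fun_prop)

lemma d_pos (hnc : ∀ c : ℝ, ν ≠ Measure.dirac c) (hmean : ∫ x, x ∂ν = 1) :
    0 < ∫ x, |x - 1| ∂ν := by
  have hint : Integrable (fun x : ℝ => |x - 1|) ν :=
    ((integrable_id_nu hmean).sub (integrable_const 1)).abs
  rcases (integral_nonneg (μ := ν) (f := fun x : ℝ => |x - 1|) (fun x => abs_nonneg _)).lt_or_eq
    with h | h
  · exact h
  · exfalso
    have h0 := (integral_eq_zero_iff_of_nonneg (fun x => abs_nonneg _) hint).1 h.symm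
    have h1 : ∀ᵐ x ∂ν, x ∈ ({1} : Set ℝ) := by
      filter_upwards [h0] with x hx
      have : |x - 1| = 0 := hx
      rw [abs_eq_zero, sub_eq_zero] at this
      exact this
    have h2 : ν.restrict {1} = ν := Measure.restrict_eq_self_of_ae_mem h1
    have h3 : ν {1} = 1 := by
      have : ν {1}ᶜ = 0 := mem_ae_iff.1 h1
      exact (prob_compl_eq_zero_iff (measurableSet_singleton 1)).1 this
    apply hnc 1
    rw [← h2, Measure.restrict_singleton, h3, one_smul]

/-- The class of the path product as an element of the product span. -/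
noncomputable def xE (hW : IsRealization ν μ W) (hpos : ν (Set.Ioi 0) = 1)
    (hmean : ∫ x, x ∂ν = 1) (v : List ℕ) : productSpan μ W :=
  ⟨xv hW hpos hmean v, xv_mem hW hpos hmean v⟩

lemma step_xE (hW : IsRealization ν μ W) (hpos : ν (Set.Ioi 0) = 1)
    (hmean : ∫ x, x ∂ν = 1) (hm2 : Integrable (fun x : ℝ => x ^ 2) ν) (v : List ℕ)
    (S : Submodule ℝ (productSpan μ W)) (hS : IsClosed (S : Set (productSpan μ W)))
    (hfin : FiniteDimensional ℝ ((productSpan μ W) ⧸ S)) (η : ℝ) (hη : 0 < η) :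
    ∃ n : ℕ, ∃ y' ∈ S, ‖(xE hW hpos hmean (n :: v) - xE hW hpos hmean v) - y'‖ < η := by
  have h1 : ∀ (A : Finset ℕ) (s : ℕ → ℝ), (∀ n, s n = 1 ∨ s n = -1) →
      ‖∑ n ∈ A, s n • (xE hW hpos hmean (n :: v) - xE hW hpos hmean v)‖ ≤
        Real.sqrt (∫ x, (x - 1) ^ 2 ∂ν) * Real.sqrt A.card := by
    intro A s hs
    have := norm_signed_sum_le hW hpos hmean hm2 v A s hs
    rw [Submodule.coe_norm]
    simpa [xE] using this
  have h2 := tendsto_of_signed_sums
    (fun n => xE hW hpos hmean (n :: v) - xE hW hpos hmean v) _ h1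
  exact (exists_near_submodule _ h2 S hS hfin η hη).exists

lemma norm_xE (hW : IsRealization ν μ W) (hpos : ν (Set.Ioi 0) = 1)
    (hmean : ∫ x, x ∂ν = 1) (v : List ℕ) : ‖xE hW hpos hmean v‖ = 1 := by
  rw [Submodule.coe_norm]; exact norm_xv hW hpos hmean v

lemma norm_diff_xE (hW : IsRealization ν μ W) (hpos : ν (Set.Ioi 0) = 1)
    (hmean : ∫ x, x ∂ν = 1) (v : List ℕ) (n : ℕ) :
    ‖xE hW hpos hmean (n :: v) - xE hW hpos hmean v‖ = ∫ x, |x - 1| ∂ν := by
  rw [Submodule.coe_norm]; exact norm_diff hW hpos hmean v n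

theorem not_finiteDimensional_productSpan (hW : IsRealization ν μ W) (hpos : ν (Set.Ioi 0) = 1)
    (hnc : ∀ c : ℝ, ν ≠ Measure.dirac c) (hmean : ∫ x, x ∂ν = 1)
    (hm2 : Integrable (fun x : ℝ => x ^ 2) ν) : ¬ FiniteDimensional ℝ (productSpan μ W) := by
  intro hfd
  have hd := d_pos hnc hmean
  obtain ⟨n, y', hy', hlt⟩ := step_xE hW hpos hmean hm2 [] ⊥ (by simp)
    inferInstance _ hd
  rw [Submodule.mem_bot] at hy'
  rw [hy', sub_zero, norm_diff_xE] at hlt
  exact lt_irrefl _ hlt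

theorem noAUC_productSpan (hW : IsRealization ν μ W) (hpos : ν (Set.Ioi 0) = 1)
    (hnc : ∀ c : ℝ, ν ≠ Measure.dirac c) (hmean : ∫ x, x ∂ν = 1)
    (hm2 : Integrable (fun x : ℝ => x ^ 2) ν)
    (N : productSpan μ W → ℝ) (hadd : ∀ x y, N (x + y) ≤ N x + N y)
    (hhom : ∀ (a : ℝ) x, N (a • x) = |a| * N x)
    (hequiv : ∃ a b : ℝ, 0 < a ∧ ∀ x, a * ‖x‖ ≤ N x ∧ N x ≤ b * ‖x‖)
    (hAUC : ∀ t : ℝ, 0 < t → ∃ c : ℝ, 0 < c ∧ ∀ x, N x = 1 → ∃ F : Set (productSpan μ W),
      (∃ S : Submodule ℝ (productSpan μ W), (S : Set (productSpan μ W)) = F ∧ IsClosed F ∧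
        FiniteDimensional ℝ ((productSpan μ W) ⧸ S)) ∧
      ∀ y ∈ F, N y = 1 → c ≤ N (x + t • y) - 1) : False := by
  refine noAUC_core (Set.range (xE hW hpos hmean)) ⟨_, ⟨[], rfl⟩⟩ _ (d_pos hnc hmean) ?_ ?_
    N hadd hhom hequiv hAUC
  · rintro _ ⟨v, rfl⟩
    exact norm_xE hW hpos hmean v
  · rintro _ ⟨v, rfl⟩ S hS hfin η hη
    obtain ⟨n, y', hy', hlt⟩ := step_xE hW hpos hmean hm2 v S hS hfin η hη
    refine ⟨xE hW hpos hmean (n :: v) - xE hW hpos hmean v, y', hy', hlt.le,
      (norm_diff_xE hW hpos hmean v n).ge, ⟨n :: v, by abel⟩⟩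

end Final

end Crest.Agent.helper9
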